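import Vale.Agent.P279.Defs

namespace Vale.Agent.P279
open MvPolynomial

namespace KerAux

theorem ev_hom {K R σ : Type*} [CommRing K] [CommRing R] [Fintype σ] (ι : K →+* R) (y : σ → R)
    (k : ℕ) (G : MvPolynomial σ K) (hG : G.IsHomogeneous k) :
    eval₂ (Polynomial.C.comp ι) (fun i => Polynomial.C (y i) * Polynomial.X) G
      = Polynomial.C (eval₂ ι y G) * Polynomial.X ^ k := by
  rw [eval₂_eq', eval₂_eq', map_sum, Finset.sum_mul]
  refine Finset.sum_congr rfl fun μ hμ => ?_
  have hk : ∑ j, μ j = k := by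
    have := hG (mem_support_iff.mp hμ)
    rw [← Finsupp.degree_eq_sum, Finsupp.degree_eq_weight_one]
    exact this
  simp only [mul_pow]
  rw [Finset.prod_mul_distrib, Finset.prod_pow_eq_pow_sum, hk, map_mul, map_prod]
  simp only [map_pow, RingHom.comp_apply]
  ring

theorem two_var {K R : Type*} [CommRing K] [CommRing R] (ι : K →+* R) (u : Fin 2 → R)
    (hind : ∀ (k : ℕ) (g : ℕ → K),
      ∑ i ∈ Finset.range (k + 1), ι (g i) * u 0 ^ (k - i) * u 1 ^ i = 0 → ∀ i ≤ k, g i = 0)
    (k : ℕ) (H : MvPolynomial (Fin 2) K) (hH : H.IsHomogeneous k) (h0 : eval₂ ι u H = 0) :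
    H = 0 := by
  classical
  let e : ℕ → (Fin 2 →₀ ℕ) := fun i => Finsupp.single 0 (k - i) + Finsupp.single 1 i
  have he0 : ∀ i, e i 0 = k - i := fun i => by simp [e]
  have he1 : ∀ i, e i 1 = i := fun i => by simp [e]
  have hrep : H = ∑ i ∈ Finset.range (k + 1), monomial (e i) (coeff (e i) H) := by
    ext μ
    rw [coeff_sum]
    simp only [coeff_monomial]
    by_cases hμ : μ.degree = k
    · have hs : μ 0 + μ 1 = k := by
        rw [Finsupp.degree_eq_sum, Fin.sum_univ_two] at hμ
        exact hμ
      have hμe : e (μ 1) = μ := by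
        ext j
        fin_cases j
        · exact (he0 _).trans (by simp only [Fin.zero_eta]; omega)
        · exact he1 _
      rw [Finset.sum_eq_single (μ 1), if_pos hμe, hμe]
      · intro i _ hi
        rw [if_neg]
        intro h
        exact hi (by rw [← h, he1])
      · intro h
        exact absurd (Finset.mem_range.mpr (by omega)) h
    · rw [hH.coeff_eq_zero hμ]
      refine (Finset.sum_eq_zero fun i _ => ?_).symm
      split_ifs with h
      · rw [h, hH.coeff_eq_zero hμ]
      · rfl
  have hz := hind k (fun i => coeff (e i) H) (by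
    rw [← h0]
    conv_rhs => rw [hrep, eval₂_sum]
    refine Finset.sum_congr rfl fun i _ => ?_
    rw [eval₂_monomial, Finsupp.prod_fintype _ _ (by simp), Fin.prod_univ_two, he0, he1, mul_assoc])
  rw [hrep]
  refine Finset.sum_eq_zero fun i hi => ?_
  rw [hz i (by have := Finset.mem_range.mp hi; omega), monomial_zero]

theorem inj_two {K R : Type*} [CommRing K] [CommRing R] (ι : K →+* R) (u : Fin 2 → R)
    (hind : ∀ (k : ℕ) (g : ℕ → K),
      ∑ i ∈ Finset.range (k + 1), ι (g i) * u 0 ^ (k - i) * u 1 ^ i = 0 → ∀ i ≤ k, g i = 0) :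
    Function.Injective
      (eval₂Hom (Polynomial.C.comp ι) (fun i => Polynomial.C (u i) * Polynomial.X)) := by
  rw [injective_iff_map_eq_zero]
  intro F hF
  rw [← sum_homogeneousComponent F] at hF ⊢
  rw [map_sum] at hF
  simp only [coe_eval₂Hom] at hF
  have h1 : ∀ i, eval₂ (Polynomial.C.comp ι) (fun i => Polynomial.C (u i) * Polynomial.X)
      (homogeneousComponent i F) = Polynomial.C (eval₂ ι u (homogeneousComponent i F)) *
        Polynomial.X ^ i := fun i => ev_hom ι u i _ (homogeneousComponent_isHomogeneous i F)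
  simp only [h1] at hF
  refine Finset.sum_eq_zero fun i hi => ?_
  refine two_var ι u hind i _ (homogeneousComponent_isHomogeneous i F) ?_
  have := congrArg (fun p => Polynomial.coeff p i) hF
  simp only [Polynomial.finsetSum_coeff, Polynomial.coeff_C_mul_X_pow, Polynomial.coeff_zero,
    Finset.sum_ite_eq, hi, if_true] at this
  exact this

theorem no_root {K : Type*} [Field K] [CharZero K] (a b c e : K) (hb : b ≠ 0)
    (hac : ¬ (a = 0 ∧ c = 0)) (he : e ≠ 0) (hdisc : 27 * b * a * c + e ^ 3 ≠ 0)
    (l : Polynomial K) :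
    Polynomial.C b * l ^ 3 + Polynomial.C e * (l * Polynomial.X) + Polynomial.C a +
      Polynomial.C c * Polynomial.X ^ 3 ≠ 0 := by
  intro h
  have hl : l.natDegree ≤ 1 := by
    by_contra hl
    have h2 : 2 ≤ l.natDegree := by omega
    have h3 : Polynomial.C b * l ^ 3 = -(Polynomial.C e * (l * Polynomial.X) + Polynomial.C a +
      Polynomial.C c * Polynomial.X ^ 3) := by linear_combination h
    have h4 := congrArg Polynomial.natDegree h3
    rw [Polynomial.natDegree_C_mul hb, Polynomial.natDegree_pow, Polynomial.natDegree_neg] at h4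
    have h5 : (Polynomial.C e * (l * Polynomial.X) + Polynomial.C a +
      Polynomial.C c * Polynomial.X ^ 3).natDegree ≤ l.natDegree + 1 := by
      refine Polynomial.natDegree_add_le_of_degree_le
        (Polynomial.natDegree_add_le_of_degree_le ?_ (by simp)) ?_
      · refine (Polynomial.natDegree_C_mul_le _ _).trans ?_
        refine Polynomial.natDegree_mul_le.trans ?_
        simp
      · exact (Polynomial.natDegree_C_mul_X_pow_le _ _).trans (by omega)
    omega
  obtain ⟨ν, lam, rfl⟩ : ∃ ν lam, l = Polynomial.C ν * Polynomial.X + Polynomial.C lam :=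
    ⟨_, _, Polynomial.eq_X_add_C_of_natDegree_le_one hl⟩
  have hev : ∀ t : K, b * (ν * t + lam) ^ 3 + e * ((ν * t + lam) * t) + a + c * t ^ 3 = 0 := by
    intro t
    have := congrArg (Polynomial.eval t) h
    simpa using this
  have e0 := hev 0
  have e1 := hev 1
  have e2 := hev (-1)
  have e3 := hev 2
  have c0 : b * lam ^ 3 + a = 0 := by linear_combination e0
  have c2 : 3 * b * lam * ν ^ 2 + e * ν = 0 := by
    have : (2 : K) * (3 * b * lam * ν ^ 2 + e * ν) = 0 := by linear_combination e1 + e2 - 2 * e0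
    exact (mul_eq_zero.mp this).resolve_left two_ne_zero
  have c3 : b * ν ^ 3 + c = 0 := by
    have : (6 : K) * (b * ν ^ 3 + c) = 0 := by
      linear_combination e3 - 3 * e1 + 3 * e0 - e2
    exact (mul_eq_zero.mp this).resolve_left (by norm_num)
  have c1 : 3 * b * lam ^ 2 * ν + e * lam = 0 := by
    linear_combination e1 - c0 - c2 - c3
  by_cases hlam : lam = 0
  · subst hlam
    have hν : ν = 0 := by
      have : e * ν = 0 := by linear_combination c2
      exact (mul_eq_zero.mp this).resolve_left he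
    subst hν
    exact hac ⟨by linear_combination c0, by linear_combination c3⟩
  · have h1 : 3 * b * lam * ν + e = 0 := by
      have : lam * (3 * b * lam * ν + e) = 0 := by linear_combination c1
      exact (mul_eq_zero.mp this).resolve_left hlam
    apply hdisc
    have ha : a = -(b * lam ^ 3) := by linear_combination c0
    have hc : c = -(b * ν ^ 3) := by linear_combination c3
    have he' : e = -(3 * b * lam * ν) := by linear_combination h1
    rw [ha, hc, he']
    ring

theorem cub_hom {K : Type*} [CommRing K] (a b c e : K) : (cub a b c e).IsHomogeneous 3 := by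
  unfold cub
  refine ((IsHomogeneous.add ?_ ?_).add ?_).add ?_
  · exact isHomogeneous_C_mul_X_pow _ _ _
  · exact (((isHomogeneous_X K 0).mul (isHomogeneous_X K 1)).mul (isHomogeneous_X K 2)).C_mul _
  · exact isHomogeneous_C_mul_X_pow _ _ _
  · exact isHomogeneous_C_mul_X_pow _ _ _

theorem quot_hom {K σ : Type*} [CommRing K] (u Q G : MvPolynomial σ K) (k : ℕ)
    (hu : u.IsHomogeneous 3) (hG0 : G ≠ 0) (hG : G.IsHomogeneous k) (h : G = u * Q) :
    3 ≤ k ∧ ∃ Q : MvPolynomial σ K, Q.IsHomogeneous (k - 3) ∧ G = u * Q := by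
  have h1 : G = ∑ i ∈ Finset.range (Q.totalDegree + 1),
      if k = 3 + i then u * homogeneousComponent i Q else 0 := by
    rw [← homogeneousComponent_eq_self hG, h]
    conv_lhs => rw [← sum_homogeneousComponent Q, Finset.mul_sum, map_sum]
    refine Finset.sum_congr rfl fun i _ => ?_
    exact homogeneousComponent_of_mem (hu.mul (homogeneousComponent_isHomogeneous i Q))
  have hk : 3 ≤ k := by
    by_contra hk
    apply hG0
    rw [h1]
    exact Finset.sum_eq_zero fun i _ => if_neg (by omega)
  refine ⟨hk, homogeneousComponent (k - 3) Q, homogeneousComponent_isHomogeneous _ _, ?_⟩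
  have h2 : ∀ i, (k = 3 + i) = (k - 3 = i) := fun i => propext (by omega)
  simp only [h2, Finset.sum_ite_eq] at h1
  split_ifs at h1
  · exact h1
  · exact absurd h1 hG0

end KerAux

open KerAux in
/-- A form vanishing on a parametrized irreducible cubic is divisible by the cubic. -/
theorem ker_cub {K R : Type} [Field K] [CharZero K] [CommRing R] [IsDomain R] (ι : K →+* R)
    (y : Fin 3 → R) (a b c e : K) (hb : b ≠ 0) (hac : ¬ (a = 0 ∧ c = 0))
    (he : e ≠ 0) (hdisc : 27 * b * a * c + e ^ 3 ≠ 0)
    (hrel : eval₂ ι y (cub a b c e) = 0)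
    (hind : ∀ (k : ℕ) (g : ℕ → K),
      ∑ i ∈ Finset.range (k + 1), ι (g i) * y 1 ^ (k - i) * y 2 ^ i = 0 → ∀ i ≤ k, g i = 0)
    (k : ℕ) (G : MvPolynomial (Fin 3) K) (hG0 : G ≠ 0) (hG : G.IsHomogeneous k)
    (hy : eval₂ ι y G = 0) :
    3 ≤ k ∧ ∃ Q : MvPolynomial (Fin 3) K, Q.IsHomogeneous (k - 3) ∧ G = cub a b c e * Q := by
  let S := MvPolynomial (Fin 2) K
  let φ : S →+* Polynomial R :=
    eval₂Hom (Polynomial.C.comp ι) (fun i => Polynomial.C (y i.succ) * Polynomial.X)
  have hφ : Function.Injective φ := inj_two ι (fun i => y i.succ) hind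
  let _ : Algebra S (Polynomial R) := φ.toAlgebra
  have : Module.IsTorsionFree S (Polynomial R) :=
    Module.isTorsionFree_iff_algebraMap_injective.mpr hφ
  let η : Polynomial R := Polynomial.C (y 0) * Polynomial.X
  have hA : ∀ F : MvPolynomial (Fin 3) K, Polynomial.aeval η (finSuccEquiv K 2 F) =
      eval₂ (Polynomial.C.comp ι) (fun i => Polynomial.C (y i) * Polynomial.X) F := by
    intro F
    have : ((Polynomial.aeval η : Polynomial S →ₐ[S] Polynomial R) : Polynomial S →+* _).comp
        (finSuccEquiv K 2 : MvPolynomial (Fin 3) K →+* Polynomial S) =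
        eval₂Hom (Polynomial.C.comp ι) (fun i => Polynomial.C (y i) * Polynomial.X) := by
      refine MvPolynomial.ringHom_ext (fun x => ?_) (fun i => ?_)
      · simp only [RingHom.comp_apply, RingHom.coe_coe, finSuccEquiv_apply, eval₂Hom_C,
          Polynomial.aeval_C]
        exact eval₂Hom_C _ _ _
      · refine Fin.cases ?_ (fun j => ?_) i
        · simp only [RingHom.comp_apply, RingHom.coe_coe, finSuccEquiv_X_zero, Polynomial.aeval_X,
            eval₂Hom_X']
          rfl
        · simp only [RingHom.comp_apply, RingHom.coe_coe, finSuccEquiv_X_succ, Polynomial.aeval_C,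
            eval₂Hom_X']
          exact eval₂Hom_X' _ _ _
    exact congrArg (fun f : MvPolynomial (Fin 3) K →+* Polynomial R => f F) this
  let u : Polynomial S := finSuccEquiv K 2 (C b⁻¹ * cub a b c e)
  have hC : ∀ x : K, finSuccEquiv K 2 (C x) = Polynomial.C (C x) := fun x => by
    simp [finSuccEquiv_apply]
  have hX1 : finSuccEquiv K 2 (X 1) = Polynomial.C (X 0) := finSuccEquiv_X_succ (j := 0)
  have hX2 : finSuccEquiv K 2 (X 2) = Polynomial.C (X 1) := finSuccEquiv_X_succ (j := 1)
  have hbb : (C b⁻¹ * C b : S) = 1 := by rw [← map_mul, inv_mul_cancel₀ hb, map_one]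
  have hu : u = Polynomial.X ^ 3 + (Polynomial.C (C b⁻¹ * C e * X 0 * X 1 : S) * Polynomial.X +
      Polynomial.C (C b⁻¹ * (C a * X 0 ^ 3 + C c * X 1 ^ 3) : S)) := by
    have h1 : (Polynomial.C (C b⁻¹ : S)) * Polynomial.C (C b : S) = 1 := by
      rw [← map_mul, hbb, map_one]
    simp only [u, cub, map_mul, map_add, map_pow, hC, hX1, hX2, finSuccEquiv_X_zero]
    linear_combination Polynomial.X ^ 3 * h1
  have hdeg : (Polynomial.C (C b⁻¹ * C e * X 0 * X 1 : S) * Polynomial.X +
      Polynomial.C (C b⁻¹ * (C a * X 0 ^ 3 + C c * X 1 ^ 3) : S)).degree < ((3 : ℕ) : WithBot ℕ) :=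
    lt_of_le_of_lt Polynomial.degree_linear_le (by norm_num)
  have hmon : u.Monic := hu ▸ Polynomial.monic_X_pow_add hdeg
  have hnd : u.natDegree = 3 := by
    rw [hu, Polynomial.natDegree_add_eq_left_of_degree_lt (by rwa [Polynomial.degree_X_pow]),
      Polynomial.natDegree_X_pow]
  have hu0 : Polynomial.aeval η u = 0 := by
    rw [hA, ev_hom ι y 3 _ ((cub_hom a b c e).C_mul _), eval₂_mul, hrel]
    simp
  have hirr : Irreducible u := by
    rw [hmon.irreducible_iff_roots_eq_zero_of_degree_le_three (by omega) (by omega),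
      Multiset.eq_zero_iff_forall_notMem]
    intro L hL
    have hL' := (Polynomial.mem_roots hmon.ne_zero).mp hL
    rw [Polynomial.IsRoot, hu] at hL'
    let ψ : S →ₐ[K] Polynomial K := aeval ![1, Polynomial.X]
    have h2 := congrArg ψ hL'
    have hψC : ∀ x : K, ψ (C x) = Polynomial.C x := fun x => aeval_C _ _
    have hψ0 : ψ (X 0) = 1 := aeval_X _ _
    have hψ1 : ψ (X 1) = Polynomial.X := aeval_X _ _
    simp only [Polynomial.eval_add, Polynomial.eval_mul, Polynomial.eval_pow, Polynomial.eval_X,
      Polynomial.eval_C, map_add, map_mul, map_pow, map_zero, hψC, hψ0, hψ1] at h2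
    have h1 : Polynomial.C b⁻¹ * Polynomial.C b = 1 := by
      rw [← map_mul, inv_mul_cancel₀ hb, map_one]
    refine no_root a b c e hb hac he hdisc (ψ L) ?_
    linear_combination Polynomial.C b * h2 - (Polynomial.C e * (ψ L * Polynomial.X) +
      Polynomial.C a + Polynomial.C c * Polynomial.X ^ 3) * h1
  have hint : IsIntegral S η := ⟨u, hmon, hu0⟩
  have hd1 : minpoly S η ∣ u := minpoly.isIntegrallyClosed_dvd hint hu0
  have hd2 : minpoly S η ∣ finSuccEquiv K 2 G := minpoly.isIntegrallyClosed_dvd hint (by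
    rw [hA, ev_hom ι y k _ hG, hy]
    simp)
  have hd3 : u ∣ finSuccEquiv K 2 G :=
    ((minpoly.irreducible hint).associated_of_dvd hirr hd1).symm.dvd.trans hd2
  obtain ⟨q, hq⟩ := hd3
  refine quot_hom _ (C b⁻¹ * (finSuccEquiv K 2).symm q) G k (cub_hom a b c e) hG0 hG ?_
  apply (finSuccEquiv K 2).injective
  rw [hq]
  simp only [u, map_mul, AlgEquiv.apply_symm_apply]
  ring

end Vale.Agent.P279
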