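import Vale.Agent.P279.Cubic
import Vale.Agent.P279.Ker

/-! Degeneration to the normal cone of the cubic. -/

namespace Vale.Agent.P279
open MvPolynomial

noncomputable section

theorem TT.window' {ρ : ℝ} {e : ℕ} {f : RR} (hf : TT ρ e f) {v : ℝ}
    (hv : ∀ j < v, f.coeff j = 0) {a : ℤ × ℤ}
    (ha : cf f v a ≠ 0) : -(e * ρ) ≤ a.2 ∧ (a.2 : ℝ) ≤ e * (3 - ρ) := by
  have h1 : f.coeff v ≠ 0 := fun h0 => ha (by simp [cf, h0])
  have h2 : f.order = v := by
    refine le_antisymm (HahnSeries.order_le_of_coeff_ne_zero h1) (not_lt.1 fun h => h1 ?_)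
    rw [HahnSeries.coeff_order_eq_zero.1 (hv _ h)]
    simp
  exact hf.window (h2 ▸ ha)

/-- The parametrization of a neighbourhood of the cubic. -/
def YY (y : Fin 3 → RR) (v : RR) : Fin 3 → Polynomial RR :=
  ![Polynomial.C (y 0) + Polynomial.X * Polynomial.C v, Polynomial.C (y 1), Polynomial.C (y 2)]

/-- Pull back of forms with constant coefficients. -/
def psi (y : Fin 3 → RR) (v : RR) : MvPolynomial (Fin 3) KK →+* Polynomial RR :=
  eval₂Hom (Polynomial.C.comp iota) (YY y v)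

theorem psi_coeff_zero (y : Fin 3 → RR) (v : RR) (G : MvPolynomial (Fin 3) KK) :
    (psi y v G).coeff 0 = eval₂ iota y G := by
  induction G using MvPolynomial.induction_on with
  | C a => simp [psi]
  | add p q hp hq => rw [map_add, Polynomial.coeff_add, hp, hq, eval₂_add]
  | mul_X p i hp =>
    have h : (psi y v (X i)).coeff 0 = y i := by
      rw [psi, eval₂Hom_X']
      fin_cases i <;> simp [YY]
    rw [map_mul, Polynomial.mul_coeff_zero, hp, eval₂_mul, eval₂_X, h]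

theorem cub_aux {R : Type*} [CommRing R] (b e a c y0 y1 y2 v : R)
    (h : b * y0 ^ 3 + e * (y0 * y1 * y2) + a * y1 ^ 3 + c * y2 ^ 3 = 0) :
    Polynomial.C b * (Polynomial.C y0 + Polynomial.X * Polynomial.C v) ^ 3 + Polynomial.C e *
      ((Polynomial.C y0 + Polynomial.X * Polynomial.C v) * Polynomial.C y1 * Polynomial.C y2) +
      Polynomial.C a * Polynomial.C y1 ^ 3 + Polynomial.C c * Polynomial.C y2 ^ 3 =
    Polynomial.X * (Polynomial.C (v * (3 * b * (y0 * y0) + e * (y1 * y2))) +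
      Polynomial.X * (Polynomial.C (3 * b * y0 * v ^ 2) +
        Polynomial.X * Polynomial.C (b * v ^ 3))) := by
  have h' := congrArg Polynomial.C h
  simp only [map_add, map_mul, map_pow, map_zero, map_ofNat] at h' ⊢
  linear_combination h'

theorem psi_cub (y : Fin 3 → RR) (v : RR) (a b c e : KK) (h : eval₂ iota y (cub a b c e) = 0) :
    ∃ u : Polynomial RR, psi y v (cub a b c e) = Polynomial.X * u ∧
      u.coeff 0 = v * (3 * iota b * (y 0 * y 0) + iota e * (y 1 * y 2)) := by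
  refine ⟨Polynomial.C (v * (3 * iota b * (y 0 * y 0) + iota e * (y 1 * y 2))) +
    Polynomial.X * (Polynomial.C (3 * iota b * y 0 * v ^ 2) +
      Polynomial.X * Polynomial.C (iota b * v ^ 3)), ?_, by simp⟩
  rw [eval_cub] at h
  have e0 : YY y v 0 = Polynomial.C (y 0) + Polynomial.X * Polynomial.C v := rfl
  have e1 : YY y v 1 = Polynomial.C (y 1) := rfl
  have e2 : YY y v 2 = Polynomial.C (y 2) := rfl
  rw [psi, coe_eval₂Hom, eval_cub, e0, e1, e2]
  simp only [RingHom.comp_apply]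
  exact cub_aux _ _ _ _ _ _ _ _ h

theorem factor_cub (y : Fin 3 → RR) (u : MvPolynomial (Fin 3) KK)
    (hker : ∀ (k : ℕ) (G : MvPolynomial (Fin 3) KK), G ≠ 0 → G.IsHomogeneous k →
      eval₂ iota y G = 0 → 3 ≤ k ∧ ∃ Q : MvPolynomial (Fin 3) KK, Q.IsHomogeneous (k - 3) ∧
        G = u * Q) (d : ℕ) :
    ∀ G : MvPolynomial (Fin 3) KK, G ≠ 0 → G.IsHomogeneous d → ∃ (x : ℕ)
      (G' : MvPolynomial (Fin 3) KK), 3 * x ≤ d ∧ G'.IsHomogeneous (d - 3 * x) ∧
      eval₂ iota y G' ≠ 0 ∧ G = u ^ x * G' := by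
  induction d using Nat.strong_induction_on with
  | _ d ih =>
    intro G hG0 hG
    by_cases hy : eval₂ iota y G = 0
    · obtain ⟨h3, Q, hQ, rfl⟩ := hker d G hG0 hG hy
      obtain ⟨x, G', h1, h2, h4, rfl⟩ := ih (d - 3) (by omega) Q (right_ne_zero_of_mul hG0) hQ
      refine ⟨x + 1, G', by omega, ?_, h4, by ring⟩
      rwa [show d - 3 * (x + 1) = d - 3 - 3 * x by omega]
    · exact ⟨0, G, by omega, by simpa using hG, hy, by simp⟩

/-- The coefficient of `ε ^ k` of a form. -/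
def Fk (F : MvPolynomial (Fin 3) (Polynomial KK)) (k : ℕ) : MvPolynomial (Fin 3) KK :=
  ∑ γ ∈ F.support, monomial γ ((coeff γ F).coeff k)

theorem coeff_Fk (F : MvPolynomial (Fin 3) (Polynomial KK)) (k : ℕ) (γ : Fin 3 →₀ ℕ) :
    coeff γ (Fk F k) = (coeff γ F).coeff k := by
  classical
  simp only [Fk, coeff_sum, coeff_monomial, Finset.sum_ite_eq']
  split_ifs with h
  · rfl
  · rw [notMem_support_iff.1 h]; simp

theorem Fk_hom {F : MvPolynomial (Fin 3) (Polynomial KK)} {d : ℕ} (hF : F.IsHomogeneous d)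
    (k : ℕ) : (Fk F k).IsHomogeneous d := by
  intro γ hγ
  rw [coeff_Fk] at hγ
  exact hF fun h => hγ (by simp [h])

theorem exists_decomp (F : MvPolynomial (Fin 3) (Polynomial KK)) :
    ∃ N, F = ∑ k ∈ Finset.range N, C (Polynomial.X ^ k) * map Polynomial.C (Fk F k) := by
  refine ⟨F.support.sup (fun γ => (coeff γ F).natDegree) + 1, ?_⟩
  ext1 γ
  simp only [coeff_sum, coeff_C_mul, coeff_map, coeff_Fk]
  have h : (coeff γ F).natDegree < F.support.sup (fun γ => (coeff γ F).natDegree) + 1 := by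
    by_cases hγ : γ ∈ F.support
    · exact Nat.lt_succ_of_le (Finset.le_sup (f := fun γ => (coeff γ F).natDegree) hγ)
    · rw [notMem_support_iff.1 hγ]; simp
  conv_lhs => rw [Polynomial.as_sum_range' _ _ h]
  refine Finset.sum_congr rfl fun k _ => ?_
  rw [← Polynomial.C_mul_X_pow_eq_monomial, Polynomial.X_pow_mul]

theorem pull_decomp (y : Fin 3 → RR) (v : RR) (F : MvPolynomial (Fin 3) (Polynomial KK)) :
    ∃ N, F = ∑ k ∈ Finset.range N, C (Polynomial.X ^ k) * map Polynomial.C (Fk F k) ∧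
      pull (YY y v) F = ∑ k ∈ Finset.range N, Polynomial.X ^ k * psi y v (Fk F k) := by
  obtain ⟨N, hN⟩ := exists_decomp F
  refine ⟨N, hN, ?_⟩
  conv_lhs => rw [hN]
  rw [pull, eval₂_sum]
  refine Finset.sum_congr rfl fun k _ => ?_
  rw [eval₂_mul, eval₂_C, eval₂_map, psi, coe_eval₂Hom]
  congr 2
  · simp
  · ext <;> simp

/-- The lowest coefficient in `ε`. -/
theorem low_eps (y : Fin 3 → RR) (v W : RR) (P : ℕ → RR → Prop) (d : ℕ)
    (hfac : ∀ G : MvPolynomial (Fin 3) KK, G ≠ 0 → G.IsHomogeneous d → ∃ (x : ℕ) (g : RR)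
      (h : Polynomial RR), P x g ∧ psi y v G = Polynomial.X ^ x * h ∧ h.coeff 0 = W ^ x * g)
    (F : MvPolynomial (Fin 3) (Polynomial KK)) (hF0 : F ≠ 0) (hF : F.IsHomogeneous d) :
    ∃ (μ : ℕ) (S : Finset ℕ) (x : ℕ → ℕ) (g : ℕ → RR), S.Nonempty ∧ (∀ k ∈ S, k + x k = μ) ∧
      (∀ k ∈ S, P (x k) (g k)) ∧ (pull (YY y v) F).coeff μ = ∑ k ∈ S, W ^ x k * g k := by
  classical
  obtain ⟨N, hN, hp⟩ := pull_decomp y v F
  have hch : ∀ k, ∃ (x : ℕ) (g : RR) (h : Polynomial RR), Fk F k ≠ 0 →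
      P x g ∧ psi y v (Fk F k) = Polynomial.X ^ x * h ∧ h.coeff 0 = W ^ x * g := by
    intro k
    by_cases h0 : Fk F k = 0
    · exact ⟨0, 0, 0, fun h => (h h0).elim⟩
    · obtain ⟨x, g, h, H⟩ := hfac _ h0 (Fk_hom hF k)
      exact ⟨x, g, h, fun _ => H⟩
  choose x g h H using hch
  obtain ⟨T, hT⟩ : ∃ T, T = (Finset.range N).filter fun k => Fk F k ≠ 0 := ⟨_, rfl⟩
  have hTm : ∀ k, k ∈ T ↔ k ∈ Finset.range N ∧ Fk F k ≠ 0 := fun k => by
    rw [hT, Finset.mem_filter]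
  have hTne : T.Nonempty := by
    by_contra hc
    rw [Finset.not_nonempty_iff_eq_empty] at hc
    apply hF0
    rw [hN]
    refine Finset.sum_eq_zero fun k hk => ?_
    have : Fk F k = 0 := by
      by_contra h0
      have := (hTm k).2 ⟨hk, h0⟩
      simp [hc] at this
    rw [this, map_zero, mul_zero]
  obtain ⟨k0, hk0, hmin⟩ := T.exists_min_image (fun k => k + x k) hTne
  refine ⟨k0 + x k0, T.filter fun k => k + x k = k0 + x k0, x, g,
    ⟨k0, Finset.mem_filter.2 ⟨hk0, rfl⟩⟩, fun k hk => (Finset.mem_filter.1 hk).2,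
    fun k hk => (H k ((hTm k).1 (Finset.mem_filter.1 hk).1).2).1, ?_⟩
  rw [hp, Polynomial.finset_sum_coeff, Finset.sum_filter, hT, Finset.sum_filter]
  refine Finset.sum_congr rfl fun k hk => ?_
  by_cases h0 : Fk F k = 0
  · simp [h0]
  · obtain ⟨-, h2, h3⟩ := H k h0
    have h4 := hmin k ((hTm k).2 ⟨hk, h0⟩)
    rw [if_pos h0, h2, ← mul_assoc, ← pow_add, Polynomial.coeff_X_pow_mul']
    by_cases h5 : k + x k = k0 + x k0
    · rw [if_pos h5, if_pos h5.le, h5, Nat.sub_self, h3]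
    · rw [if_neg h5, if_neg (by omega)]

/-- The lowest coefficient in `t`. -/
theorem low_t (κ : ℤ) (z : ℂ) (hz : z ≠ 0) (W : RR)
    (hW : Red 0 W (AddMonoidAlgebra.single (1, κ) z)) (μ : ℕ) (S : Finset ℕ) (x : ℕ → ℕ)
    (g : ℕ → RR) (hS : S.Nonempty) (hx : ∀ k ∈ S, k + x k = μ) (hg0 : ∀ k ∈ S, g k ≠ 0)
    (hZ : ∀ k ∈ S, Z0 (g k)) :
    ∃ t : ℝ, (∑ k ∈ S, W ^ x k * g k).coeff t ≠ 0 ∧
      ∀ a ∈ ((∑ k ∈ S, W ^ x k * g k).coeff t).coeff.support, ∃ k ∈ S, a.1 = x k ∧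
        (∀ j < t, (g k).coeff j = 0) ∧ cf (g k) t (0, a.2 - κ * x k) ≠ 0 := by
  obtain ⟨t, ht, k0, hk0, h0⟩ := exists_low S g (by
    obtain ⟨k, hk⟩ := hS
    exact ⟨k, hk, hg0 k hk⟩)
  have hR := (Red.sum S _ _ fun k hk => (hW.pow (x k)).mul (ht k hk)).2
  rw [zero_add] at hR
  have hc : ∀ a : ℤ × ℤ, ((∑ k ∈ S, W ^ x k * g k).coeff t).coeff a =
      ∑ k ∈ S, z ^ x k * cf (g k) t (a.1 - x k, a.2 - κ * x k) := by
    intro a
    rw [hR, AddMonoidAlgebra.coeff_sum, Finsupp.finset_sum_apply]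
    refine Finset.sum_congr rfl fun k _ => ?_
    rw [AddMonoidAlgebra.single_pow, AddMonoidAlgebra.coeff_single_mul_apply, cf]
    congr 2
    ext
    · simp only [Prod.smul_mk, Prod.fst_add, Prod.fst_neg, nsmul_eq_mul]; ring
    · simp only [Prod.smul_mk, Prod.snd_add, Prod.snd_neg, nsmul_eq_mul]; ring
  refine ⟨t, ?_, ?_⟩
  · have : ∃ b, cf (g k0) t b ≠ 0 := by
      by_contra hcc
      push Not at hcc
      apply h0
      ext b
      exact hcc b
    obtain ⟨⟨b1, b2⟩, hb⟩ := this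
    have hb1 : b1 = 0 := hZ k0 hk0 _ _ hb
    subst hb1
    intro h
    have h1 := hc (x k0, b2 + κ * x k0)
    rw [h, Finset.sum_eq_single k0] at h1
    · simp only [sub_self, add_sub_cancel_right] at h1
      exact mul_ne_zero (pow_ne_zero _ hz) hb h1.symm
    · intro k hk hne
      by_contra h2
      have h3 := hZ k hk _ _ (right_ne_zero_of_mul h2)
      have h4 := hx k hk
      have h5 := hx k0 hk0
      simp only at h3
      omega
    · intro h2; exact (h2 hk0).elim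
  · intro a ha
    rw [Finsupp.mem_support_iff, hc] at ha
    obtain ⟨k, hk, h1⟩ := Finset.exists_ne_zero_of_sum_ne_zero ha
    have h2 := right_ne_zero_of_mul h1
    have h3 : a.1 - x k = 0 := hZ k hk _ _ h2
    rw [h3] at h2
    exact ⟨k, hk, by omega, (ht k hk).1, h2⟩

end

end Vale.Agent.P279
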