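import Vale.Agent.P279.Defs

namespace Vale.Agent.P279

theorem exists_beta (r d : ℕ) : ∃ β : ℝ, Real.sqrt r < β ∧ (∀ k : ℤ, β ≠ k) ∧
    ∀ e : ℕ, e ≤ d → ∀ n : ℤ, (n : ℝ) ≤ e * β → (n : ℝ) ≤ e * Real.sqrt r := by
  have h : ∀ᶠ β in nhds (Real.sqrt r), ∀ e ∈ Finset.range (d + 1),
      (e : ℝ) * β < (⌊(e : ℝ) * Real.sqrt r⌋ : ℝ) + 1 :=
    (Filter.eventually_all_finset _).2 fun e _ =>
      (continuous_const.mul continuous_id).continuousAt.eventually_lt continuousAt_const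
        (Int.lt_floor_add_one _)
  obtain ⟨ε, hε, h⟩ := Metric.eventually_nhds_iff.1 h
  obtain ⟨β, h1, h2, h3⟩ := exists_irrational_btwn (lt_add_of_pos_right (Real.sqrt r) hε)
  refine ⟨β, h2, h1.ne_int, fun e he n hn => ?_⟩
  have h4 := h (y := β) (by rw [Real.dist_eq, abs_of_pos (by linarith)]; linarith) e
    (Finset.mem_range.2 (by omega))
  have h5 : n < ⌊(e : ℝ) * Real.sqrt r⌋ + 1 := by exact_mod_cast hn.trans_lt h4
  exact Int.le_floor.1 (by omega)

theorem Count.card_le (N : Finset ℤ) (t : ℤ) (A : ℝ) (M : ℕ)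
    (h : ∀ n ∈ N, A < n + t ∧ (n : ℝ) + t ≤ A + M) : N.card ≤ M := by
  refine (Finset.card_le_card (t := Finset.Ioc (⌊A⌋ - t) (⌊A⌋ - t + M)) fun n hn => ?_).trans
    (by simp)
  have h1 : ⌊A⌋ < n + t := Int.floor_lt.2 (by push_cast; exact (h n hn).1)
  have h2 : n + t - M ≤ ⌊A⌋ := Int.le_floor.2 (by push_cast; linarith [(h n hn).2])
  exact Finset.mem_Ioc.2 ⟨by omega, by omega⟩

theorem count (r d m : ℕ) (hr : 10 ≤ r) (hd : 1 ≤ d) (hm : (d : ℝ) * Real.sqrt r ≤ r * m)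
    (β : ℝ) (hβ : Real.sqrt r < β)
    (hfl : ∀ e : ℕ, e ≤ d → ∀ n : ℤ, (n : ℝ) ≤ e * β → (n : ℝ) ≤ e * Real.sqrt r)
    (t : ℤ) (S : Finset (ℤ × ℤ))
    (hS : ∀ a ∈ S, 0 ≤ a.1 ∧ 3 * a.1 ≤ d ∧
      ((d : ℝ) - 3 * a.1) * (β - 3) ≤ a.2 + t ∧ (a.2 : ℝ) + t ≤ ((d : ℝ) - 3 * a.1) * β)
    (ℓ : ℕ) (hℓ : 1 ≤ ℓ) (N : Finset ℤ)
    (hN : ∀ n ∈ N, ℓ ≤ (S.filter (fun a => a.2 = n)).card) :
    N.card ≤ r * (m + 1 - ℓ) := by
  have hr' : (10 : ℝ) ≤ r := by exact_mod_cast hr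
  have hd' : (1 : ℝ) ≤ d := by exact_mod_cast hd
  have hqq : Real.sqrt r * Real.sqrt r = r := Real.mul_self_sqrt (by positivity)
  have hq3 : 3 < Real.sqrt r := Real.lt_sqrt_of_sq_lt (by linarith)
  have hirr : r ≤ 15 → Irrational (Real.sqrt r) := fun h => irrational_sqrt_natCast_iff.2 (by
    rintro ⟨k, rfl⟩
    rcases le_or_gt k 3 with h1 | h1 <;> nlinarith)
  have hq4 : 16 ≤ r → 4 ≤ Real.sqrt r := fun h => Real.le_sqrt_of_sq_le (by
    have : (16 : ℝ) ≤ r := by exact_mod_cast h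
    linarith)
  generalize Real.sqrt r = q at *
  have key : ∀ n ∈ N, ((ℓ : ℝ) - 1) * (β * (β - 3)) ≤ n + t ∧
      (n : ℝ) + t ≤ (d - 3 * ((ℓ : ℝ) - 1)) * q ∧ ((n : ℝ) + t = 0 ∨ β - 3 ≤ n + t) := by
    intro n hn
    have h1 := hN n hn
    have hne : (S.filter (fun a => a.2 = n)).Nonempty := Finset.card_pos.1 (by omega)
    obtain ⟨a, ha, hamin⟩ := Finset.exists_min_image _ Prod.fst hne
    obtain ⟨b, hb, hbmax⟩ := Finset.exists_max_image _ Prod.fst hne
    have h2 : (S.filter (fun a => a.2 = n)).card ≤ (Finset.Icc a.1 b.1).card :=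
      Finset.card_le_card_of_injOn Prod.fst
        (fun x hx => Finset.mem_Icc.2 ⟨hamin x hx, hbmax x hx⟩)
        fun x hx y hy h => Prod.ext h
          ((Finset.mem_filter.1 hx).2.trans (Finset.mem_filter.1 hy).2.symm)
    rw [Int.card_Icc] at h2
    have h3 : (ℓ : ℤ) ≤ b.1 + 1 - a.1 := by omega
    have h3' : (ℓ : ℝ) ≤ b.1 + 1 - a.1 := by exact_mod_cast h3
    obtain ⟨ha1, rfl⟩ := Finset.mem_filter.1 ha
    obtain ⟨hb1, hb2⟩ := Finset.mem_filter.1 hb
    obtain ⟨a1, a2, a3, a4⟩ := hS a ha1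
    obtain ⟨b1, b2, b3, b4⟩ := hS b hb1
    rw [hb2] at b3 b4
    obtain ⟨e, he⟩ : ∃ e : ℕ, (e : ℤ) = d - 3 * b.1 := ⟨(d - 3 * b.1).toNat, by omega⟩
    have he' : (e : ℝ) = d - 3 * b.1 := by exact_mod_cast he
    have a1' : (0 : ℝ) ≤ a.1 := by exact_mod_cast a1
    have h4 := hfl e (by omega) (a.2 + t) (by push_cast; rw [he']; exact b4)
    push_cast at h4
    rw [← he'] at b3 b4
    refine ⟨?_, h4.trans (mul_le_mul_of_nonneg_right (by linarith) (by linarith)), ?_⟩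
    · have h5 : ((e : ℝ) + 3 * ((ℓ : ℝ) - 1)) * (β - 3) ≤ a.2 + t :=
        (mul_le_mul_of_nonneg_right (by linarith) (by linarith)).trans a3
      have h6 := mul_le_mul_of_nonneg_left h5 (show 0 ≤ β by linarith)
      have h7 := mul_le_mul_of_nonneg_right b4 (show 0 ≤ β - 3 by linarith)
      linarith
    · rcases Nat.eq_zero_or_pos e with rfl | h5
      · left
        simp only [Nat.cast_zero, zero_mul] at b3 b4
        linarith
      · right
        have : (1 : ℝ) ≤ e := by exact_mod_cast h5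
        nlinarith
  rcases hℓ.eq_or_lt with rfl | h2
  · simp only [Nat.cast_one, sub_self, zero_mul, mul_zero, sub_zero, Nat.add_sub_cancel] at key ⊢
    rcases le_or_gt 16 r with h16 | h16
    · have h4 := hq4 h16
      have h5 : 1 ≤ r * m := by
        have : (1 : ℝ) ≤ r * m := by nlinarith
        exact_mod_cast this
      refine (Finset.card_le_card (t := insert (-t) (Finset.Icc (2 - t) (r * m - t)))
        fun n hn => ?_).trans ((Finset.card_insert_le _ _).trans ?_)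
      · obtain ⟨-, k2, k3⟩ := key n hn
        have k4 : n + t ≤ r * m := by exact_mod_cast k2.trans hm
        rw [Finset.mem_insert, Finset.mem_Icc]
        rcases k3 with k3 | k3
        · left
          have : n + t = 0 := by exact_mod_cast k3
          omega
        · right
          have : 1 < n + t := by exact_mod_cast (by linarith : (1 : ℝ) < n + t)
          omega
      · rw [Int.card_Icc, ← Nat.cast_mul]
        omega
    · refine Count.card_le N t (-1) _ fun n hn => ?_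
      obtain ⟨k1, k2, -⟩ := key n hn
      refine ⟨by linarith, ?_⟩
      have k3 : (d : ℝ) * q ≠ (r * m : ℕ) := ((hirr (by omega)).natCast_mul (by omega)).ne_nat _
      have k4 : n + t < (r * m : ℕ) := by
        have : (n : ℝ) + t < (r * m : ℕ) := k2.trans_lt (lt_of_le_of_ne (by exact_mod_cast hm) k3)
        exact_mod_cast this
      have k5 : n + t ≤ -1 + (r * m : ℕ) := by omega
      exact_mod_cast k5
  · refine Count.card_le N t (((ℓ : ℝ) - 1) * (q * (q - 3))) _ fun n hn => ?_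
    obtain ⟨k1, k2, -⟩ := key n hn
    have h3 : (2 : ℝ) ≤ ℓ := by exact_mod_cast h2
    refine ⟨lt_of_lt_of_le (mul_lt_mul_of_pos_left (by nlinarith) (by linarith)) k1, ?_⟩
    have h4 : (m : ℝ) + 1 - ℓ ≤ (m + 1 - ℓ : ℕ) := by
      have : (m : ℤ) + 1 - ℓ ≤ (m + 1 - ℓ : ℕ) := by omega
      exact_mod_cast this
    have h5 := mul_le_mul_of_nonneg_left h4 (show (0 : ℝ) ≤ r by linarith)
    have h6 : ((ℓ : ℝ) - 1) * (q * q) = ((ℓ : ℝ) - 1) * r := by rw [hqq]
    push_cast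
    linarith

end Vale.Agent.P279
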