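import Vale.Agent.P279.Theta

/-! The cubic relation between the three theta series. -/

namespace Vale.Agent.P279
open MvPolynomial

noncomputable section

/-- Coefficient extraction. -/
def cA (a : ℤ × ℤ) : A2 →+ ℂ where
  toFun G := G.coeff a
  map_zero' := by simp
  map_add' _ _ := by simp

/-- The series of coefficients of `s ^ n`. -/
def row (n : ℤ) (f : RR) : KK := f.map (cA (0, n))

theorem row_coeff (n : ℤ) (f : RR) (j : ℝ) : (row n f).coeff j = cf f j (0, n) := rfl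

theorem row_add (n : ℤ) (f g : RR) : row n (f + g) = row n f + row n g := by
  ext j; simp [row_coeff, cf_add]

theorem row_zero (n : ℤ) : row n 0 = 0 := by
  ext j; simp [row_coeff, cf_zero]

theorem coeff_alg_mul (z : ℂ) (G : A2) (a : ℤ × ℤ) :
    (algebraMap ℂ A2 z * G).coeff a = z * G.coeff a := by
  rw [← Algebra.smul_def]; rfl

theorem row_iota_mul (n : ℤ) (c : KK) (f : RR) : row n (iota c * f) = c * row n f := by
  ext j
  rw [row_coeff, cf, HahnSeries.coeff_mul_left' c.isPWO_support,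
    HahnSeries.coeff_mul_right' f.isPWO_support, AddMonoidAlgebra.coeff_sum,
    Finsupp.finset_sum_apply]
  · refine Finset.sum_congr rfl fun p _ => ?_
    rw [row_coeff, iota, hmap_coeff, coeff_alg_mul, cf]
  · intro i hi h
    exact hi (by simp [row_coeff, cf, h])
  · intro i hi h
    exact hi (by simp [iota, h])

theorem eq_zero_of_rows {ρ : ℝ} (h0 : 0 < ρ) (h1 : ρ < 1) {f : RR} (hT : TT ρ 3 f) (hZ : Z0 f)
    (hC : Cl 0 f) (r0 : row 0 f = 0) (r3 : row 3 f = 0) (r6 : row 6 f = 0) : f = 0 := by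
  by_contra hf
  have h2 : f.coeff f.order ≠ 0 := fun h => hf (HahnSeries.coeff_order_eq_zero.1 h)
  have : ∃ a, cf f f.order a ≠ 0 := by
    by_contra hc
    push Not at hc
    apply h2
    ext a
    exact hc a
  obtain ⟨⟨x, n⟩, ha⟩ := this
  obtain ⟨w1, w2⟩ := hT.window ha
  have hx : x = 0 := hZ _ _ ha
  have hn : n % 3 = 0 % 3 := hC _ _ ha
  subst hx
  push_cast at w1 w2
  have w3 : (-3 : ℤ) < n := by
    have : (-3 : ℝ) < n := by linarith
    exact_mod_cast this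
  have w4 : n < 9 := by
    have : (n : ℝ) < 9 := by linarith
    exact_mod_cast this
  rw [← row_coeff] at ha
  rcases (show n = 0 ∨ n = 3 ∨ n = 6 by omega) with h | h | h <;> subst h
  · simp [r0] at ha
  · simp [r3] at ha
  · simp [r6] at ha

theorem Cl.zero (i : ℤ) : Cl i 0 := fun _ _ h => (h (cf_zero _ _)).elim

theorem exists_rel {ρ : ℝ} (h0 : 0 < ρ) (h1 : ρ < 1) (f : Fin 4 → RR) (hT : ∀ i, TT ρ 3 (f i))
    (hZ : ∀ i, Z0 (f i)) (hC : ∀ i, Cl 0 (f i)) :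
    ∃ g : Fin 4 → KK, (∃ i, g i ≠ 0) ∧ ∑ i, iota (g i) * f i = 0 := by
  have hdep : ¬ LinearIndependent KK (fun (i : Fin 4) (k : Fin 3) => row (3 * (k : ℕ)) (f i)) := by
    intro h
    have := h.fintype_card_le_finrank
    simp at this
  obtain ⟨g, hg, hne⟩ := Fintype.not_linearIndependent_iff.1 hdep
  refine ⟨g, hne, ?_⟩
  have hr : ∀ k : Fin 3, row (3 * (k : ℕ)) (∑ i, iota (g i) * f i) = 0 := by
    intro k
    have := congrFun hg k
    simp only [Fin.sum_univ_four, Pi.add_apply, Pi.smul_apply, smul_eq_mul, Pi.zero_apply] at this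
    simp only [Fin.sum_univ_four, row_add, row_iota_mul]
    exact this
  refine eq_zero_of_rows h0 h1 ?_ ?_ ?_ (hr 0) (hr 1) (hr 2)
  · exact TT.sum _ _ fun i _ => by simpa using (TT.of_iota ρ (g i)).mul (hT i)
  · exact Finset.sum_induction _ Z0 (fun _ _ => Z0.add) Z0.zero
      fun i _ => (Z0.of_iota _).mul (hZ i)
  · exact Finset.sum_induction _ (Cl 0) (fun _ _ => Cl.add) (Cl.zero 0)
      fun i _ => by simpa using (Cl.of_iota (g i)).mul (hC i)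

theorem row5_sq {ρ : ℝ} (h0 : 0 < ρ) (h1 : ρ < 1) :
    Red ρ (row 5 (th ρ 1 * th ρ 1)) 0 := by
  have key : ∀ j ≤ ρ, (row 5 (th ρ 1 * th ρ 1)).coeff j = 0 := by
    intro j hj
    by_contra h
    obtain ⟨i, ⟨x, n⟩, h2, h3⟩ := cf_mul_ne_zero (show cf _ j (0, 5) ≠ 0 from h)
    obtain ⟨-, a2, a3⟩ := thc_ne h2
    obtain ⟨-, b2, b3⟩ := thc_ne h3
    simp only [Prod.mk_sub_mk] at a2 a3 b2 b3
    have c1 := gam_cases h0 h1 (by norm_num) (by norm_num) a2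
    have c2 := gam_cases h0 h1 (by norm_num) (by norm_num) b2
    have d1 : 0 ≤ i := by
      rcases gam_pos h0 h1 (by norm_num) (by norm_num) a2 with h | h
      · rw [h] at a3; linarith
      · linarith
    have d2 : 0 ≤ j - i := by
      rcases gam_pos h0 h1 (by norm_num) (by norm_num) b2 with h | h
      · rw [h] at b3; linarith
      · linarith
    push_cast at c1 c2
    rcases c1 with c1 | c1 | c1 | c1
    · rcases c2 with c2 | c2 | c2 | c2
      · omega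
      · linarith [c2.2]
      · linarith [c2.2]
      · linarith
    · linarith [c1.2]
    · linarith [c1.2]
    · linarith
  exact ⟨fun j hj => key j hj.le, key ρ le_rfl⟩

theorem row5_aux {ρ : ℝ} (h0 : 0 < ρ) (h1 : ρ < 1) {j i : ℝ} {a : ℤ × ℤ} (hj : j ≤ ρ)
    (h2 : thc ρ 0 i a ≠ 0) (h3 : thc ρ 2 (j - i) ((0, 5) - a) ≠ 0) :
    j = ρ ∧ (i, a) = (ρ, (0, 3)) := by
  obtain ⟨x, n⟩ := a
  obtain ⟨a1, a2, a3⟩ := thc_ne h2
  obtain ⟨-, b2, b3⟩ := thc_ne h3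
  simp only [Prod.mk_sub_mk] at a1 a2 a3 b2 b3
  have c1 := gam_cases h0 h1 (by norm_num) (by norm_num) a2
  have c2 := gam_cases h0 h1 (by norm_num) (by norm_num) b2
  have d2 : 0 ≤ j - i := by
    rcases gam_pos h0 h1 (by norm_num) (by norm_num) b2 with h | h
    · rw [h] at b3; linarith
    · linarith
  push_cast at c1 c2
  rcases c1 with c1 | c1 | c1 | c1
  · exfalso
    have hi : i = 0 := by rw [c1] at a3; linarith
    rcases c2 with c2 | c2 | c2 | c2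
    · omega
    · linarith [c2.2]
    · omega
    · linarith
  · have hi : i = ρ := by linarith [c1.2]
    refine ⟨by linarith, ?_⟩
    rw [hi, a1, c1.1]
  · exfalso; linarith [c1.2]
  · exfalso; linarith

theorem row5_mul {ρ : ℝ} (h0 : 0 < ρ) (h1 : ρ < 1) :
    Red ρ (row 5 (th ρ 0 * th ρ 2)) 1 := by
  constructor
  · intro j hj
    by_contra h
    obtain ⟨i, a, h2, h3⟩ := cf_mul_ne_zero (show cf _ j (0, 5) ≠ 0 from h)
    exact hj.ne (row5_aux h0 h1 hj.le h2 h3).1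
  · rw [row_coeff, cf_mul, finsum_eq_single _ (ρ, ((0 : ℤ), (3 : ℤ)))]
    · have e1 : thc ρ 0 ρ (0, 3) = 1 := if_pos ⟨rfl, rfl, by simp only [gam]; push_cast; ring⟩
      have e2 : thc ρ 2 (ρ - ρ) (0, 2) = 1 := if_pos ⟨rfl, rfl, by simp⟩
      change thc ρ 0 ρ (0, 3) * thc ρ 2 (ρ - ρ) (0, 2) = 1
      rw [e1, e2, one_mul]
    · intro p hp
      by_contra h
      exact hp (row5_aux h0 h1 le_rfl (left_ne_zero_of_mul h) (right_ne_zero_of_mul h)).2

/-- The three theta series, the middle one first. -/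
def yy (ρ : ℝ) : Fin 3 → RR := ![th ρ 1, th ρ 0, th ρ 2]

theorem eval_cub {R : Type*} [CommSemiring R] (ι : KK →+* R) (y : Fin 3 → R) (a b c e : KK) :
    eval₂ ι y (cub a b c e) =
      ι b * y 0 ^ 3 + ι e * (y 0 * y 1 * y 2) + ι a * y 1 ^ 3 + ι c * y 2 ^ 3 := by
  simp [cub, eval₂_add, eval₂_mul, eval₂_pow]

theorem exists_rel4 {ρ : ℝ} (h0 : 0 < ρ) (h1 : ρ < 1) (f0 f1 f2 f3 : RR)
    (hT : TT ρ 3 f0 ∧ TT ρ 3 f1 ∧ TT ρ 3 f2 ∧ TT ρ 3 f3)
    (hZ : Z0 f0 ∧ Z0 f1 ∧ Z0 f2 ∧ Z0 f3) (hC : Cl 0 f0 ∧ Cl 0 f1 ∧ Cl 0 f2 ∧ Cl 0 f3) :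
    ∃ (b e a c : KK) (zb ze za zc : ℂ), Red 0 b zb ∧ Red 0 e ze ∧ Red 0 a za ∧ Red 0 c zc ∧
      (zb ≠ 0 ∨ ze ≠ 0 ∨ za ≠ 0 ∨ zc ≠ 0) ∧
      iota b * f0 + iota e * f1 + iota a * f2 + iota c * f3 = 0 := by
  obtain ⟨g, hne, hg⟩ := exists_rel h0 h1 ![f0, f1, f2, f3]
    (by intro i; fin_cases i; exacts [hT.1, hT.2.1, hT.2.2.1, hT.2.2.2])
    (by intro i; fin_cases i; exacts [hZ.1, hZ.2.1, hZ.2.2.1, hZ.2.2.2])
    (by intro i; fin_cases i; exacts [hC.1, hC.2.1, hC.2.2.1, hC.2.2.2])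
  obtain ⟨v, hv, i0, -, hi0⟩ := exists_low Finset.univ g (by simpa using hne)
  obtain ⟨t, ht⟩ : ∃ t : KK, Red (-v) t 1 := ⟨_, Red.single (-v) 1⟩
  have hR : ∀ i, Red 0 (t * g i) ((g i).coeff v) := fun i => by
    simpa using ht.mul (hv i (Finset.mem_univ i))
  refine ⟨_, _, _, _, _, _, _, _, hR 0, hR 1, hR 2, hR 3, ?_, ?_⟩
  · fin_cases i0
    exacts [Or.inl hi0, Or.inr (Or.inl hi0), Or.inr (Or.inr (Or.inl hi0)),
      Or.inr (Or.inr (Or.inr hi0))]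
  · have hg' : iota (g 0) * f0 + iota (g 1) * f1 + iota (g 2) * f2 + iota (g 3) * f3 = 0 := by
      rw [Fin.sum_univ_four] at hg
      exact hg
    simp only [map_mul]
    linear_combination iota t * hg'

theorem red_rel {zb ze za zc : ℂ}
    (h : algebraMap ℂ A2 zb * sm 3 + algebraMap ℂ A2 ze * sm 3 + algebraMap ℂ A2 za * sm 0 +
      algebraMap ℂ A2 zc * sm 6 = 0) : za = 0 ∧ zc = 0 ∧ zb + ze = 0 := by
  have e0 := congrArg (fun x : A2 => x.coeff (0, 0)) h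
  have e3 := congrArg (fun x : A2 => x.coeff (0, 3)) h
  have e6 := congrArg (fun x : A2 => x.coeff (0, 6)) h
  simp only [AddMonoidAlgebra.coeff_add, Finsupp.add_apply, coeff_alg_sm, Prod.mk.injEq, true_and,
    AddMonoidAlgebra.coeff_zero, Finsupp.zero_apply] at e0 e3 e6
  norm_num at e0 e3 e6
  exact ⟨e0, e6, e3⟩

theorem no_quad {ρ : ℝ} (h0 : 0 < ρ) (h1 : ρ < 1) {b e : KK} {zb ze : ℂ} (hb : Red 0 b zb)
    (he : Red 0 e ze) (h : iota b * (th ρ 1 * th ρ 1) + iota e * (th ρ 0 * th ρ 2) = 0) :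
    ze = 0 := by
  have h3 := congrArg (row 5) h
  rw [row_add, row_iota_mul, row_iota_mul, row_zero] at h3
  have h4 := ((hb.mul (row5_sq h0 h1)).add (he.mul (row5_mul h0 h1))).eq_zero h3
  simpa using h4

theorem sm_ne_zero (n : ℤ) : sm n ≠ 0 := by
  intro h
  have := congrArg (fun x : A2 => x.coeff (0, n)) h
  simp [sm] at this

instance : IsDomain A2 := NoZeroDivisors.to_isDomain _

instance : IsDomain RR := inferInstance

theorem cancel_aux {R : Type*} [CommRing R] [IsDomain R] {b e x y z : R} (hy : y ≠ 0)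
    (h : b * (y * y * y) + e * (y * x * z) + 0 * (x * x * x) + 0 * (z * z * z) = 0) :
    b * (y * y) + e * (x * z) = 0 := by
  apply mul_left_cancel₀ hy
  linear_combination h

theorem red_cubic {y0 y1 y2 : RR} (R0 : Red 0 y0 (sm 0)) (R1 : Red 0 y1 (sm 1))
    (R2 : Red 0 y2 (sm 2)) {b e a c : KK} {zb ze za zc : ℂ} (hb : Red 0 b zb) (he : Red 0 e ze)
    (ha : Red 0 a za) (hc : Red 0 c zc)
    (hrel : iota b * (y1 * y1 * y1) + iota e * (y1 * y0 * y2) + iota a * (y0 * y0 * y0) +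
      iota c * (y2 * y2 * y2) = 0) : za = 0 ∧ zc = 0 ∧ zb + ze = 0 := by
  have hred := ((((hb.of_iota.mul0 ((R1.mul0 R1).mul0 R1)).add
    (he.of_iota.mul0 ((R1.mul0 R0).mul0 R2))).add
    (ha.of_iota.mul0 ((R0.mul0 R0).mul0 R0))).add
    (hc.of_iota.mul0 ((R2.mul0 R2).mul0 R2))).eq_zero hrel
  simp only [sm_mul] at hred
  exact red_rel hred

theorem eval_yy (ρ : ℝ) (a b c e : KK) : eval₂ iota (yy ρ) (cub a b c e) =
    iota b * (th ρ 1 * th ρ 1 * th ρ 1) + iota e * (th ρ 1 * th ρ 0 * th ρ 2) +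
      iota a * (th ρ 0 * th ρ 0 * th ρ 0) + iota c * (th ρ 2 * th ρ 2 * th ρ 2) := by
  rw [eval_cub]
  have e0 : yy ρ 0 = th ρ 1 := rfl
  have e1 : yy ρ 1 = th ρ 0 := rfl
  have e2 : yy ρ 2 = th ρ 2 := rfl
  rw [e0, e1, e2]
  ring

theorem exists_cubic {ρ : ℝ} (h0 : 0 < ρ) (h1 : ρ < 1) :
    ∃ (a b c e : KK) (β : ℂ), β ≠ 0 ∧ Red 0 a 0 ∧ Red 0 c 0 ∧ Red 0 b β ∧ Red 0 e (-β) ∧
      ¬ (a = 0 ∧ c = 0) ∧ eval₂ iota (yy ρ) (cub a b c e) = 0 := by
  have R0 := th_Red h0 h1 (i := 0) (by norm_num) (by norm_num)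
  have R1 := th_Red h0 h1 (i := 1) (by norm_num) (by norm_num)
  have R2 := th_Red h0 h1 (i := 2) (by norm_num) (by norm_num)
  have hT : ∀ i j k, TT ρ 3 (th ρ i * th ρ j * th ρ k) := fun i j k => by
    have h := ((th_TT ρ i).mul (th_TT ρ j)).mul (th_TT ρ k)
    exact h
  have hz : ∀ i j k, Z0 (th ρ i * th ρ j * th ρ k) := fun i j k =>
    ((th_Z0 _ _).mul (th_Z0 _ _)).mul (th_Z0 _ _)
  have hc : ∀ i j k, (i + j + k) % 3 = 0 % 3 → Cl 0 (th ρ i * th ρ j * th ρ k) := fun i j k h =>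
    (((th_Cl _ _).mul (th_Cl _ _)).mul (th_Cl _ _)).congr h
  have hex := exists_rel4 h0 h1
    (th ρ 1 * th ρ 1 * th ρ 1) (th ρ 1 * th ρ 0 * th ρ 2) (th ρ 0 * th ρ 0 * th ρ 0)
    (th ρ 2 * th ρ 2 * th ρ 2)
    ⟨hT 1 1 1, hT 1 0 2, hT 0 0 0, hT 2 2 2⟩
    ⟨hz 1 1 1, hz 1 0 2, hz 0 0 0, hz 2 2 2⟩
    ⟨hc 1 1 1 rfl, hc 1 0 2 rfl, hc 0 0 0 rfl, hc 2 2 2 rfl⟩
  obtain ⟨b, e, a, c, zb, ze, za, zc, hb, he, ha, hc, hne, hrel⟩ := hex
  obtain ⟨e0, e6, e3⟩ := red_cubic R0 R1 R2 hb he ha hc hrel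
  have hβ : zb ≠ 0 := by
    intro h
    rw [h, zero_add] at e3
    rcases hne with h' | h' | h' | h'
    exacts [h' h, h' e3, h' e0, h' e6]
  have hy : th ρ 1 ≠ 0 := fun h => sm_ne_zero _ (R1.eq_zero h)
  refine ⟨a, b, c, e, zb, hβ, ha.congr e0, hc.congr e6,
    hb, he.congr (by linear_combination e3), ?_, ?_⟩
  · rintro ⟨ha0, hc0⟩
    rw [ha0, hc0, map_zero] at hrel
    apply hβ
    linear_combination e3 - no_quad h0 h1 hb he (cancel_aux hy hrel)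
  · rw [eval_yy, hrel]

end

end Vale.Agent.P279
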