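import Vale.Agent.P279.Stmt

/-! Definitions used in the proof. -/

namespace Vale.Agent.P279
open MvPolynomial

noncomputable section

/-- All derivatives of order `< m` vanish at the vector `P`. -/
def VanP {R : Type*} [CommRing R] (m : ℕ) (P : Fin 3 → R) (F : MvPolynomial (Fin 3) R) : Prop :=
  ∀ L : List (Fin 3), L.length < m → eval P (iterD L F) = 0

/-- Laurent polynomials in `w`, `s`; the exponent `(x, n)` stands for `w ^ x * s ^ n`. -/
abbrev A2 : Type := AddMonoidAlgebra ℂ (ℤ × ℤ)

/-- The Hahn series field. -/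
abbrev KK : Type := HahnSeries ℝ ℂ

/-- Hahn series with Laurent polynomial coefficients. -/
abbrev RR : Type := HahnSeries ℝ A2

/-- Coefficientwise map of Hahn series, as a ring homomorphism. -/
def hmap {R S : Type*} [CommRing R] [CommRing S] (f : R →+* S) :
    HahnSeries ℝ R →+* HahnSeries ℝ S where
  toFun x := x.map f
  map_one' := HahnSeries.map_one f.toMonoidWithZeroHom
  map_mul' _ _ := HahnSeries.map_mul f.toNonUnitalRingHom
  map_zero' := HahnSeries.map_zero f.toZeroHom
  map_add' _ _ := HahnSeries.map_add f.toAddMonoidHom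

@[simp] theorem hmap_coeff {R S : Type*} [CommRing R] [CommRing S] (f : R →+* S)
    (x : HahnSeries ℝ R) (j : ℝ) : (hmap f x).coeff j = f (x.coeff j) := rfl

/-- Scalars. -/
def iota : KK →+* RR := hmap (algebraMap ℂ A2)

/-- Evaluation at `w = 1`, `s = σ`. -/
def evA (σ : ℂˣ) : A2 →+* ℂ :=
  (AddMonoidAlgebra.lift ℂ ℂ (ℤ × ℤ)
    { toFun := fun a => ((σ ^ (Multiplicative.toAdd a).2 : ℂˣ) : ℂ)
      map_one' := by simp
      map_mul' := fun a b => by simp [zpow_add] }).toRingHom

/-- Evaluation extended to Hahn series and polynomials in `ε`. -/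
def evB (σ : ℂˣ) : Polynomial RR →+* Polynomial KK := Polynomial.mapRingHom (hmap (evA σ))

/-- The pull back of a form with coefficients in `KK[ε]` along `Y`. -/
def pull (Y : Fin 3 → Polynomial RR) (F : MvPolynomial (Fin 3) (Polynomial KK)) :
    Polynomial RR :=
  eval₂ (Polynomial.mapRingHom iota) Y F

/-- Double coefficient. -/
def cf (f : RR) (j : ℝ) (a : ℤ × ℤ) : ℂ := (f.coeff j).coeff a

/-- No terms of negative order. -/
def Nn {R : Type*} [Zero R] (f : HahnSeries ℝ R) : Prop := ∀ j < 0, f.coeff j = 0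

/-- The functional equation of theta functions of level `e`. -/
def TT (ρ : ℝ) (e : ℕ) (f : RR) : Prop :=
  ∀ (j : ℝ) (x n : ℤ), cf f (j + n + e * ρ) (x, n + 3 * e) = cf f j (x, n)

/-- No `w`. -/
def Z0 (f : RR) : Prop := ∀ j a, cf f j a ≠ 0 → a.1 = 0

/-- Exponents of `s` in a fixed class modulo three. -/
def Cl (i : ℤ) (f : RR) : Prop := ∀ j a, cf f j a ≠ 0 → a.2 % 3 = i % 3

/-- The monomial `s ^ n`. -/
def sm (n : ℤ) : A2 := AddMonoidAlgebra.single (0, n) 1

/-- The cubic. -/
def cub {K : Type*} [CommRing K] (a b c e : K) : MvPolynomial (Fin 3) K :=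
  C b * X 0 ^ 3 + C e * (X 0 * X 1 * X 2) + C a * X 1 ^ 3 + C c * X 2 ^ 3

end

end Vale.Agent.P279
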