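import Vale.Agent.P279.Defs

namespace Vale.Agent.P279

namespace Peel
open Polynomial

theorem sv_le (n : ℕ) : ∀ p : ℝ[X], p.support.card = n + 1 → p.signVariations ≤ n := by
  induction n with
  | zero =>
    intro p hp
    obtain ⟨k, x, rfl⟩ := card_support_le_one_iff_monomial.1 hp.le
    simp
  | succ n ih =>
    intro p hp
    refine (signVariations_le_eraseLead_succ p).trans (Nat.succ_le_succ (ih _ ?_))
    rw [card_support_eraseLead, hp]; rfl

theorem sum_eval {K ι : Type*} [CommRing K] (s : Finset ι) (u x v : ι → K) {k : ℕ}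
    (h : ∀ i < k, ∑ a ∈ s, u a * x a ^ i * v a = 0) {q : K[X]} (hq : q.natDegree < k) :
    ∑ a ∈ s, u a * q.eval (x a) * v a = 0 := by
  simp only [eval_eq_sum_range' hq, Finset.mul_sum, Finset.sum_mul]
  rw [Finset.sum_comm]
  refine Finset.sum_eq_zero fun i hi => ?_
  rw [← mul_zero (q.coeff i), ← h i (Finset.mem_range.1 hi), Finset.mul_sum]
  exact Finset.sum_congr rfl fun a _ => by ring

theorem descartes {r k : ℕ} (σ : Fin r → ℝ) (hσ : ∀ l, 0 < σ l) (hinj : Function.Injective σ)
    (N : Finset ℤ) (b : ℤ → ℝ) {T : ℤ} (hT : T ∈ N) (hb : b T ≠ 0)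
    (h : ∀ l, ∀ i < k, ∑ n ∈ N, b n * (n : ℝ) ^ i * σ l ^ n = 0) : r * k < N.card := by
  classical
  obtain ⟨n0, -, hn0⟩ := N.exists_min_image id ⟨T, hT⟩
  simp only [id] at hn0
  set p : ℝ[X] := ∑ n ∈ N, monomial (n - n0).toNat (b n) with hp
  have hc : p.coeff (T - n0).toNat = b T := by
    rw [hp, finset_sum_coeff, Finset.sum_eq_single T]
    · simp
    · intro n hn hne
      have := hn0 n hn
      have := hn0 T hT
      rw [coeff_monomial, if_neg (by omega)]
    · exact fun h => absurd hT h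
  have hp0 : p ≠ 0 := fun h0 => hb (by rw [← hc, h0, coeff_zero])
  have hs : p.support.card ≤ N.card := by
    refine le_trans (Finset.card_le_card (t := N.image fun n => (n - n0).toNat) fun j hj => ?_)
      Finset.card_image_le
    by_contra hj'
    refine mem_support_iff.1 hj ?_
    rw [hp, finset_sum_coeff]
    refine Finset.sum_eq_zero fun n hn => ?_
    rw [coeff_monomial, if_neg fun h => hj' (Finset.mem_image.2 ⟨n, hn, h⟩)]
  have hd : ∀ l, ∀ i < k, (derivative^[i] p).IsRoot (σ l) := by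
    intro l i hi
    have h1 := sum_eval N b (fun n => (n : ℝ)) (fun n => σ l ^ n) (h l)
      (q := (descPochhammer ℝ i).comp (X - C (n0 : ℝ)))
      (lt_of_le_of_lt (natDegree_comp_le.trans
        (by rw [natDegree_X_sub_C, descPochhammer_natDegree, mul_one])) hi)
    have h2 := (hσ l).ne'
    rw [IsRoot, hp, iterate_derivative_sum, eval_finsetSum,
      ← mul_zero (σ l ^ (-n0 - i)), ← h1, Finset.mul_sum]
    refine Finset.sum_congr rfl fun n hn => ?_
    obtain ⟨e, rfl⟩ : ∃ e : ℕ, n = n0 + e := ⟨(n - n0).toNat, by have := hn0 n hn; omega⟩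
    rw [add_sub_cancel_left, Int.toNat_natCast, ← C_mul_X_pow_eq_monomial,
      iterate_derivative_C_mul, iterate_derivative_X_pow_eq_natCast_mul]
    simp only [eval_mul, eval_C, eval_natCast, eval_pow, eval_X, eval_comp, eval_sub, Int.cast_add,
      Int.cast_natCast, add_sub_cancel_left, descPochhammer_eval_eq_descFactorial]
    rcases le_or_gt i e with h3 | h3
    · obtain ⟨j, rfl⟩ := Nat.exists_eq_add_of_le h3
      have : σ l ^ (-n0 - i) * σ l ^ (n0 + (i + j : ℕ)) = σ l ^ j := by
        rw [← zpow_add₀ h2, ← zpow_natCast]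
        congr 1
        push_cast
        ring
      rw [Nat.add_sub_cancel_left, ← this]
      ring
    · simp [Nat.descFactorial_of_lt h3]
  have hm : ∀ l, k ≤ p.rootMultiplicity (σ l) := fun l => by
    rcases k with _ | k
    · exact Nat.zero_le _
    · exact lt_rootMultiplicity_of_isRoot_iterate_derivative hp0 fun i hi =>
        hd l i (Nat.lt_succ_of_le hi)
  have hle : ∑ l, Multiset.replicate k (σ l) ≤ p.roots.filter (0 < ·) := by
    refine Multiset.le_iff_count.2 fun x => ?_
    rw [Multiset.count_sum']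
    simp only [Multiset.count_replicate]
    by_cases hx : ∃ l, σ l = x
    · obtain ⟨l, rfl⟩ := hx
      simp only [hinj.eq_iff, Finset.sum_ite_eq', Finset.mem_univ, if_true]
      rw [Multiset.count_filter_of_pos (hσ l), count_roots]
      exact hm l
    · rw [Finset.sum_eq_zero fun l _ => if_neg fun h => hx ⟨l, h⟩]
      exact Nat.zero_le _
  have h1 := Multiset.card_le_card hle
  rw [← Multiset.countP_eq_card_filter, Multiset.card_sum] at h1
  simp only [Multiset.card_replicate, Finset.sum_const, Finset.card_univ, Fintype.card_fin,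
    smul_eq_mul] at h1
  obtain ⟨n, hn⟩ : ∃ n, p.support.card = n + 1 :=
    Nat.exists_eq_succ_of_ne_zero (by simpa using hp0)
  have := (roots_countP_pos_le_signVariations p).trans (sv_le n p hn)
  omega

end Peel

open Polynomial in
/-- Row peeling with the rule of signs. -/
theorem peel (r m : ℕ) (σ : Fin r → ℝ) (hσ : ∀ l, 0 < σ l) (hinj : Function.Injective σ)
    (c : ℤ × ℤ →₀ ℂ)
    (hrow : ∀ ℓ : ℕ, 1 ≤ ℓ → ∀ N : Finset ℤ,
      (∀ n ∈ N, ℓ ≤ (c.support.filter (fun a => a.2 = n)).card) → N.card ≤ r * (m + 1 - ℓ))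
    (hvan : ∀ (l : Fin r) (i j : ℕ), i + j < m →
      c.sum (fun a z => z * (a.1 : ℂ) ^ j * (a.2 : ℂ) ^ i * ((σ l : ℝ) : ℂ) ^ a.2) = 0) :
    c = 0 := by
  by_contra hc
  have hne : (c.support.image Prod.snd).Nonempty := (Finsupp.support_nonempty_iff.2 hc).image _
  obtain ⟨T, hT, hmin⟩ := Finset.exists_min_image _
    (fun n => (c.support.filter (fun a : ℤ × ℤ => a.2 = n)).card) hne
  obtain ⟨a0, ha0, rfl⟩ := Finset.mem_image.1 hT
  set R := c.support.filter (fun a => a.2 = a0.2) with hR
  have haR : a0 ∈ R := Finset.mem_filter.2 ⟨ha0, rfl⟩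
  have hl : 1 ≤ R.card := Finset.card_pos.2 ⟨a0, haR⟩
  have h1 := hrow R.card hl _ hmin
  set Q : ℂ[X] := ∏ a ∈ R.erase a0, (X - C (a.1 : ℂ)) with hQ
  have hQd : Q.natDegree < R.card := by
    rw [hQ, natDegree_finsetProd_X_sub_C_eq_card, Finset.card_erase_of_mem haR]
    omega
  let b : ℤ → ℂ := fun n => ∑ a ∈ c.support.filter (fun a => a.2 = n), c a * Q.eval (a.1 : ℂ)
  have hb : b a0.2 ≠ 0 := by
    have : b a0.2 = c a0 * Q.eval (a0.1 : ℂ) := by
      refine Finset.sum_eq_single a0 (fun a ha hne => ?_) fun h => absurd haR h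
      rw [hQ, eval_prod, Finset.prod_eq_zero (Finset.mem_erase.2 ⟨hne, ha⟩) (by simp), mul_zero]
    rw [this, hQ, eval_prod]
    refine mul_ne_zero (Finsupp.mem_support_iff.1 ha0) (Finset.prod_ne_zero_iff.2 fun a ha => ?_)
    obtain ⟨h2, h3⟩ := Finset.mem_erase.1 ha
    simp only [eval_sub, eval_X, eval_C, sub_ne_zero, ne_eq, Int.cast_inj]
    exact fun h4 => h2 (Prod.ext h4.symm (Finset.mem_filter.1 h3).2)
  have hv : ∀ l, ∀ i < m + 1 - R.card,
      ∑ n ∈ c.support.image Prod.snd, b n * (((n : ℝ) ^ i * σ l ^ n : ℝ) : ℂ) = 0 := by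
    intro l i hi
    have h2 := Peel.sum_eval c.support c (fun a => (a.1 : ℂ))
      (fun a => (a.2 : ℂ) ^ i * ((σ l : ℝ) : ℂ) ^ a.2) (k := R.card)
      (fun j hj => by simpa only [Finsupp.sum, mul_assoc] using hvan l i j (by omega)) hQd
    rw [← h2, ← Finset.sum_fiberwise_of_maps_to (s := c.support) (t := c.support.image Prod.snd)
      (g := Prod.snd) fun a ha => Finset.mem_image_of_mem _ ha]
    refine Finset.sum_congr rfl fun n _ => ?_
    rw [Finset.sum_mul]
    refine Finset.sum_congr rfl fun a ha => ?_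
    rw [(Finset.mem_filter.1 ha).2]
    push_cast
    rfl
  by_cases hre : (b a0.2).re = 0
  · have him : (b a0.2).im ≠ 0 := fun h => hb (Complex.ext hre h)
    refine absurd h1 (not_le.2 (Peel.descartes σ hσ hinj _ (fun n => (b n).im) hT him
      fun l i hi => ?_))
    simpa only [Complex.im_sum, Complex.im_mul_ofReal, Complex.zero_im, mul_assoc] using
      congrArg Complex.im (hv l i hi)
  · refine absurd h1 (not_le.2 (Peel.descartes σ hσ hinj _ (fun n => (b n).re) hT hre
      fun l i hi => ?_))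
    simpa only [Complex.re_sum, Complex.re_mul_ofReal, Complex.zero_re, mul_assoc] using
      congrArg Complex.re (hv l i hi)

end Vale.Agent.P279
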