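import Vale.Agent.P279.Defs

namespace Vale.Agent.P279
open MvPolynomial

namespace Red

section A
variable {R : Type*} [CommRing R]

theorem iterD_cons (i : Fin 3) (L : List (Fin 3)) (F : MvPolynomial (Fin 3) R) :
    iterD (i :: L) F = iterD L (pderiv i F) := rfl

theorem iterD_add (L : List (Fin 3)) (F G : MvPolynomial (Fin 3) R) :
    iterD L (F + G) = iterD L F + iterD L G := by
  induction L generalizing F G with
  | nil => rfl
  | cons i L ih => rw [iterD_cons, iterD_cons, iterD_cons, map_add, ih]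

theorem iterD_zero (L : List (Fin 3)) : iterD L (0 : MvPolynomial (Fin 3) R) = 0 := by
  induction L with
  | nil => rfl
  | cons i L ih => rw [iterD_cons, map_zero, ih]

theorem iterD_C_mul (L : List (Fin 3)) (a : R) (F : MvPolynomial (Fin 3) R) :
    iterD L (C a * F) = C a * iterD L F := by
  induction L generalizing F with
  | nil => rfl
  | cons i L ih => rw [iterD_cons, iterD_cons, pderiv_C_mul, ih]

theorem iterD_sum {ι : Type*} (s : Finset ι) (L : List (Fin 3)) (F : ι → MvPolynomial (Fin 3) R) :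
    iterD L (∑ i ∈ s, F i) = ∑ i ∈ s, iterD L (F i) := by
  classical
  induction s using Finset.induction_on with
  | empty => simp [iterD_zero]
  | insert a s ha ih => rw [Finset.sum_insert ha, Finset.sum_insert ha, iterD_add, ih]

theorem iterD_map {S : Type*} [CommRing S] (φ : R →+* S) (L : List (Fin 3))
    (F : MvPolynomial (Fin 3) R) : iterD L (map φ F) = map φ (iterD L F) := by
  induction L generalizing F with
  | nil => rfl
  | cons i L ih => rw [iterD_cons, iterD_cons, pderiv_map, ih]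

theorem iterD_hom (L : List (Fin 3)) (F : MvPolynomial (Fin 3) R) (d : ℕ)
    (hF : F.IsHomogeneous d) : (iterD L F).IsHomogeneous (d - L.length) := by
  induction L generalizing F d with
  | nil => simpa [iterD] using hF
  | cons i L ih =>
    rw [iterD_cons]
    have := ih (pderiv i F) (d - 1) hF.pderiv
    rwa [List.length_cons, show d - (L.length + 1) = d - 1 - L.length by omega]

theorem vanP_succ (m : ℕ) (P : Fin 3 → R) (F : MvPolynomial (Fin 3) R) :
    VanP (m + 1) P F ↔ eval P F = 0 ∧ ∀ i, VanP m P (pderiv i F) := by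
  constructor
  · intro h
    refine ⟨h [] (by simp), fun i L hL => ?_⟩
    exact h (i :: L) (by simpa using hL)
  · rintro ⟨h0, h⟩ L hL
    cases L with
    | nil => exact h0
    | cons i L => exact h i L (by simpa using hL)

theorem vanP_mono {m m' : ℕ} (h : m ≤ m') {P : Fin 3 → R} {F : MvPolynomial (Fin 3) R}
    (hF : VanP m' P F) : VanP m P F := fun L hL => hF L (lt_of_lt_of_le hL h)

theorem vanP_add {m : ℕ} {P : Fin 3 → R} {F G : MvPolynomial (Fin 3) R}
    (hF : VanP m P F) (hG : VanP m P G) : VanP m P (F + G) := fun L hL => by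
  rw [iterD_add, map_add, hF L hL, hG L hL, add_zero]

theorem vanP_pderiv {m : ℕ} {P : Fin 3 → R} {F : MvPolynomial (Fin 3) R}
    (hF : VanP m P F) (i : Fin 3) : VanP (m - 1) P (pderiv i F) := fun L hL =>
  hF (i :: L) (by rw [List.length_cons]; omega)

theorem vanP_mul_aux (P : Fin 3 → R) (n : ℕ) : ∀ (a b : ℕ) (F G : MvPolynomial (Fin 3) R),
    a + b = n → VanP a P F → VanP b P G → VanP n P (F * G) := by
  induction n with
  | zero => intro a b F G _ _ _ L hL; simp at hL
  | succ n ih =>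
    intro a b F G hab hF hG
    rw [vanP_succ]
    refine ⟨?_, fun i => ?_⟩
    · rw [map_mul]
      rcases Nat.eq_zero_or_pos a with ha | ha
      · have : eval P G = 0 := hG [] (by simp; omega)
        rw [this, mul_zero]
      · have : eval P F = 0 := hF [] (by simpa using ha)
        rw [this, zero_mul]
    · rw [pderiv_mul]
      refine vanP_add ?_ ?_
      · exact ih (a - 1) (n - (a - 1)) _ _ (by omega) (vanP_pderiv hF i) (vanP_mono (by omega) hG)
      · exact ih (n - (b - 1)) (b - 1) _ _ (by omega) (vanP_mono (by omega) hF) (vanP_pderiv hG i)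

theorem vanP_prod {ι : Type*} (s : Finset ι) (P : Fin 3 → R) (a : ι → ℕ)
    (F : ι → MvPolynomial (Fin 3) R) (h : ∀ i ∈ s, VanP (a i) P (F i)) :
    VanP (∑ i ∈ s, a i) P (∏ i ∈ s, F i) := by
  classical
  induction s using Finset.induction_on with
  | empty => intro L hL; simp at hL
  | insert x s hx ih =>
    rw [Finset.sum_insert hx, Finset.prod_insert hx]
    exact vanP_mul_aux P _ _ _ _ _ rfl (h x (by simp))
      (ih fun i hi => h i (Finset.mem_insert_of_mem hi))

end A

/-- Exponent vectors of degree `d`. -/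
abbrev JJ (d : ℕ) : Type := ↥(Finset.finsuppAntidiag (Finset.univ : Finset (Fin 3)) d)

theorem jj_deg {d : ℕ} (γ : JJ d) : γ.1.degree = d := by
  have := γ.2
  rw [Finset.mem_finsuppAntidiag] at this
  rw [Finsupp.degree_eq_sum]
  exact this.1

/-- The form with coefficient vector `v`. -/
noncomputable def form {R : Type*} [CommRing R] {d : ℕ} (v : JJ d → R) : MvPolynomial (Fin 3) R :=
  ∑ γ : JJ d, monomial γ.1 (v γ)

theorem form_hom {R : Type*} [CommRing R] {d : ℕ} (v : JJ d → R) : (form v).IsHomogeneous d :=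
  IsHomogeneous.sum _ _ _ fun γ _ => isHomogeneous_monomial _ (jj_deg γ)

theorem coeff_form {R : Type*} [CommRing R] {d : ℕ} (v : JJ d → R) (γ : JJ d) :
    coeff γ.1 (form v) = v γ := by
  classical
  unfold form
  rw [coeff_sum, Finset.sum_eq_single γ]
  · simp
  · intro δ _ hδ
    rw [coeff_monomial, if_neg fun h => hδ (Subtype.ext h)]
  · simp

theorem form_ne {R : Type*} [CommRing R] {d : ℕ} {v : JJ d → R} (hv : v ≠ 0) : form v ≠ 0 := by
  intro h
  apply hv
  funext γ
  rw [← coeff_form v γ, h]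
  simp

theorem form_coeff {R : Type*} [CommRing R] {d : ℕ} (F : MvPolynomial (Fin 3) R)
    (hF : F.IsHomogeneous d) : form (fun γ : JJ d => coeff γ.1 F) = F := by
  classical
  ext μ
  by_cases hμ : μ ∈ Finset.finsuppAntidiag (Finset.univ : Finset (Fin 3)) d
  · exact coeff_form (fun γ : JJ d => coeff γ.1 F) ⟨μ, hμ⟩
  · have h1 : μ.degree ≠ d := by
      intro h
      apply hμ
      rw [Finset.mem_finsuppAntidiag, ← Finsupp.degree_eq_sum]
      exact ⟨h, Finset.subset_univ _⟩
    rw [(form_hom _).coeff_eq_zero h1, hF.coeff_eq_zero h1]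

/-- The generic matrix of vanishing conditions. -/
noncomputable def gm (r d : ℕ) (m : Fin r → ℕ) :
    Matrix (Fin r × List (Fin 3)) (JJ d) (MvPolynomial (Fin r × Fin 3) ℂ) :=
  fun x γ => if x.2.length < m x.1 then rename (Prod.mk x.1) (iterD x.2 (monomial γ.1 1)) else 0

theorem gm_mulVec {D : Type*} [CommRing D] [Algebra ℂ D] {r d : ℕ} (m : Fin r → ℕ)
    (P : Fin r → Fin 3 → D) (v : JJ d → D) (x : Fin r × List (Fin 3)) :
    ((gm r d m).map (aeval fun y : Fin r × Fin 3 => P y.1 y.2)).mulVec v x =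
      if x.2.length < m x.1 then eval (P x.1) (iterD x.2 (form v)) else 0 := by
  unfold Matrix.mulVec dotProduct form
  simp only [Matrix.map_apply]
  unfold gm
  split_ifs with h
  · rw [iterD_sum, map_sum]
    refine Finset.sum_congr rfl fun γ _ => ?_
    rw [aeval_rename]
    have h1 : (monomial γ.1 (v γ) : MvPolynomial (Fin 3) D)
        = C (v γ) * map (algebraMap ℂ D) (monomial γ.1 1) := by
      rw [map_monomial, map_one, C_mul_monomial, mul_one]
    rw [h1, iterD_C_mul, iterD_map, map_mul, eval_C, mul_comm, eval_map]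
    rfl
  · simp

/-- Block weights. -/
def WW (r : ℕ) : Fin r × Fin 3 → (Fin r → ℕ) := fun v => Pi.single v.1 1

theorem weight_WW {r : ℕ} (μ : Fin r × Fin 3 →₀ ℕ) (i : Fin r) :
    Finsupp.weight (WW r) μ i = ∑ j, μ (i, j) := by
  classical
  rw [Finsupp.weight_apply, Finsupp.sum_fintype _ _ (by simp), Finset.sum_apply,
    Fintype.sum_prod_type, Finset.sum_eq_single i]
  · simp [WW]
  · intro k _ hk
    simp [WW, Pi.single_eq_of_ne hk.symm]
  · simp

theorem multiHom_of {r : ℕ} {f : MvPolynomial (Fin r × Fin 3) ℂ} {deg : Fin r → ℕ}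
    (h : IsWeightedHomogeneous (WW r) f deg) : MultiHom f :=
  ⟨deg, fun μ hμ i => by rw [← weight_WW, h (mem_support_iff.mp hμ)]⟩

theorem rename_hom {r : ℕ} (i : Fin r) (q : MvPolynomial (Fin 3) ℂ) (k : ℕ)
    (hq : q.IsHomogeneous k) :
    IsWeightedHomogeneous (WW r) (rename (Prod.mk i) q) (Pi.single i k) := by
  classical
  intro μ hμ
  obtain ⟨u, rfl, hu⟩ := coeff_rename_ne_zero _ _ _ hμ
  funext l
  rw [weight_WW]
  have hk : ∑ j, u j = k := by
    have := hq hu
    rw [← Finsupp.degree_eq_sum, Finsupp.degree_eq_weight_one]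
    exact this
  by_cases hl : l = i
  · subst hl
    rw [Pi.single_eq_same, ← hk]
    exact Finset.sum_congr rfl fun j _ =>
      Finsupp.mapDomain_apply (Prod.mk_right_injective l) u j
  · rw [Pi.single_eq_of_ne hl]
    refine Finset.sum_eq_zero fun j _ => Finsupp.mapDomain_of_notMem_range _ _ ?_
    rintro ⟨j', hj'⟩
    exact hl (congrArg Prod.fst hj').symm

theorem gm_hom (r d : ℕ) (m : Fin r → ℕ) (x : Fin r × List (Fin 3)) (γ : JJ d) :
    IsWeightedHomogeneous (WW r) (gm r d m x γ) (Pi.single x.1 (d - x.2.length)) := by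
  unfold gm
  split_ifs
  · exact rename_hom _ _ _ (iterD_hom _ _ _ (isHomogeneous_monomial _ (jj_deg γ)))
  · exact isWeightedHomogeneous_zero _ _ _

theorem minor_hom (r d : ℕ) (m : Fin r → ℕ) (f : JJ d → Fin r × List (Fin 3)) :
    MultiHom ((gm r d m).submatrix f id).det := by
  classical
  refine multiHom_of (deg := ∑ γ : JJ d, Pi.single (f γ).1 (d - (f γ).2.length)) ?_
  rw [Matrix.det_apply']
  refine IsWeightedHomogeneous.sum _ _ _ fun σ _ => ?_
  have h1 : IsWeightedHomogeneous (WW r) (∏ γ, (gm r d m).submatrix f id (σ γ) γ)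
      (∑ γ : JJ d, Pi.single (f (σ γ)).1 (d - (f (σ γ)).2.length)) :=
    IsWeightedHomogeneous.prod _ _ _ fun γ _ => gm_hom r d m _ _
  rw [Equiv.sum_comp σ (fun γ => (Pi.single (f γ).1 (d - (f γ).2.length) : Fin r → ℕ))] at h1
  have h2 : IsWeightedHomogeneous (WW r)
      (((Equiv.Perm.sign σ : ℤ) : MvPolynomial (Fin r × Fin 3) ℂ)) 0 := by
    rw [← map_intCast (C : ℂ →+* MvPolynomial (Fin r × Fin 3) ℂ)]
    exact isWeightedHomogeneous_C _ _
  simpa using h2.mul h1

theorem scale {r : ℕ} {f : MvPolynomial (Fin r × Fin 3) ℂ} (hf : MultiHom f) (c : Fin r → ℂˣ)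
    (x : Fin r × Fin 3 → ℂ) (h : eval x f ≠ 0) : eval (fun v => (c v.1 : ℂ) * x v) f ≠ 0 := by
  obtain ⟨deg, hdeg⟩ := hf
  have : eval (fun v => (c v.1 : ℂ) * x v) f = (∏ i, (c i : ℂ) ^ deg i) * eval x f := by
    rw [eval_eq', eval_eq', Finset.mul_sum]
    refine Finset.sum_congr rfl fun μ hμ => ?_
    simp only [mul_pow]
    rw [Finset.prod_mul_distrib, Fintype.prod_prod_type]
    simp only [Finset.prod_pow_eq_pow_sum, hdeg μ hμ]
    ring
  rw [this]
  exact mul_ne_zero (Finset.prod_ne_zero_iff.mpr fun i _ => pow_ne_zero _ (c i).ne_zero) h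

theorem minor_field {K I J : Type*} [Field K] [Fintype J] [DecidableEq J] (N : Matrix I J K)
    (h : ∀ f : J → I, (N.submatrix f id).det = 0) : ∃ v : J → K, v ≠ 0 ∧ N.mulVec v = 0 := by
  by_cases hs : Submodule.span K (Set.range N) = ⊤
  · exfalso
    obtain ⟨b, hb, hsp, hli⟩ := exists_linearIndependent K (Set.range N)
    rw [hs] at hsp
    have hfin : b.Finite := hli.setFinite
    have : Fintype b := hfin.fintype
    let B : Module.Basis b K (J → K) := Module.Basis.mk hli (by simp [hsp])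
    have hc : Fintype.card J = Fintype.card b := by
      rw [← Module.finrank_eq_card_basis B, Module.finrank_fintype_fun_eq_card]
    let e : J ≃ b := Fintype.equivOfCardEq hc
    choose g hg using fun x : b => hb x.2
    have hli2 : LinearIndependent K (N.submatrix (fun j => g (e j)) id).row := by
      have : (N.submatrix (fun j => g (e j)) id).row = (fun x : b => (x : J → K)) ∘ e := by
        funext j
        exact hg (e j)
      rw [this]
      exact hli.comp _ e.injective
    have hu := Matrix.linearIndependent_rows_iff_isUnit.mp hli2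
    rw [Matrix.isUnit_iff_isUnit_det, h] at hu
    exact not_isUnit_zero hu
  · obtain ⟨φ, hφ, hker⟩ := Submodule.exists_le_ker_of_lt_top _ (lt_top_iff_ne_top.mpr hs)
    have hφ' : ∀ x : J → K, φ x = ∑ j, x j * φ (Pi.single j 1) := fun x => by
      rw [LinearMap.pi_apply_eq_sum_univ φ x]
      refine Finset.sum_congr rfl fun j _ => ?_
      rw [smul_eq_mul]
      congr 2
      funext k
      simp [Pi.single_apply, eq_comm]
    refine ⟨fun j => φ (Pi.single j 1), fun h0 => hφ ?_, ?_⟩
    · refine LinearMap.ext fun x => ?_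
      rw [hφ', LinearMap.zero_apply]
      refine Finset.sum_eq_zero fun j _ => ?_
      rw [show φ (Pi.single j 1) = 0 from congrFun h0 j, mul_zero]
    · funext i
      have := hker (Submodule.subset_span ⟨i, rfl⟩)
      rw [LinearMap.mem_ker, hφ'] at this
      exact this

theorem minor_dom {D I J : Type*} [CommRing D] [IsDomain D] [Fintype J] [DecidableEq J]
    (N : Matrix I J D) (h : ∀ f : J → I, (N.submatrix f id).det = 0) :
    ∃ v : J → D, v ≠ 0 ∧ N.mulVec v = 0 := by
  let K := FractionRing D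
  have hinj : Function.Injective (algebraMap D K) := IsFractionRing.injective D K
  obtain ⟨u, hu, hN⟩ := minor_field (N.map (algebraMap D K)) fun f => by
    have := (algebraMap D K).map_det (N.submatrix f id)
    rw [h, map_zero] at this
    exact this.symm
  obtain ⟨b, hb⟩ := IsLocalization.exist_integer_multiples_of_finite (nonZeroDivisors D) u
  choose v hv using hb
  have hb0 : algebraMap D K b ≠ 0 := fun h0 =>
    nonZeroDivisors.ne_zero b.2 (hinj (h0.trans (map_zero _).symm))
  refine ⟨v, fun h0 => hu ?_, ?_⟩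
  · funext j
    have := hv j
    rw [h0, Pi.zero_apply, map_zero, Algebra.smul_def] at this
    exact (mul_eq_zero.mp this.symm).resolve_left hb0
  · funext i
    apply hinj
    have := congrFun hN i
    simp only [Matrix.mulVec, dotProduct, Matrix.map_apply, Pi.zero_apply, map_sum, map_mul, hv,
      map_zero, Algebra.smul_def] at this ⊢
    have h2 : ∀ j, algebraMap D K (N i j) * (algebraMap D K b * u j)
        = algebraMap D K b * (algebraMap D K (N i j) * u j) := fun j => by ring
    simp only [h2, ← Finset.mul_sum, this, mul_zero]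

theorem exists_minor {D : Type} [CommRing D] [IsDomain D] [Algebra ℂ D] (r : ℕ) (hr : 10 ≤ r)
    (main : ∀ d m : ℕ, 1 ≤ d → (d : ℝ) * Real.sqrt r ≤ r * m →
      ∃ P : Fin r → Fin 3 → D, ∀ F : MvPolynomial (Fin 3) D, F ≠ 0 → F.IsHomogeneous d →
        ¬ ∀ l, VanP m (P l) F) (d : ℕ) (m : Fin r → ℕ) (hd : 1 ≤ d)
    (hm : (d : ℝ) * Real.sqrt r ≤ ((∑ i, m i : ℕ) : ℝ)) :
    ∃ f : JJ d → Fin r × List (Fin 3), ((gm r d m).submatrix f id).det ≠ 0 := by
  classical
  by_contra hcon
  push Not at hcon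
  have : NeZero r := ⟨by omega⟩
  obtain ⟨P, hP⟩ := main (r * d) (∑ i, m i) (Nat.mul_pos (by omega) hd) (by
    have : (0 : ℝ) ≤ r := Nat.cast_nonneg r
    have h2 := mul_le_mul_of_nonneg_left hm this
    rw [Nat.cast_mul, mul_assoc]
    exact h2)
  have key : ∀ k : Fin r, ∃ F : MvPolynomial (Fin 3) D, F ≠ 0 ∧ F.IsHomogeneous d ∧
      ∀ i, VanP (m i) (P (i + k)) F := by
    intro k
    obtain ⟨v, hv, hN⟩ := minor_dom
      ((gm r d m).map (aeval fun y : Fin r × Fin 3 => P (y.1 + k) y.2)) fun f => by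
        have := (aeval (R := ℂ) fun y : Fin r × Fin 3 => P (y.1 + k) y.2).map_det
          ((gm r d m).submatrix f id)
        rw [hcon, map_zero] at this
        exact this.symm
    refine ⟨form v, form_ne hv, form_hom v, fun i L hL => ?_⟩
    have := gm_mulVec m (fun i => P (i + k)) v (i, L)
    rw [hN, if_pos hL] at this
    exact this.symm
  choose F hF0 hFh hFv using key
  refine hP (∏ k, F k) (Finset.prod_ne_zero_iff.mpr fun k _ => hF0 k) ?_ fun l => ?_
  · have := IsHomogeneous.prod Finset.univ F (fun _ => d) fun k _ => hFh k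
    simpa using this
  · rw [← Equiv.sum_comp (Equiv.subLeft l) m]
    refine vanP_prod _ _ _ _ fun k _ => ?_
    have := hFv k (l - k)
    rwa [sub_add_cancel] at this

theorem proper {r : ℕ} (g : MvPolynomial (Fin r × Fin 3) ℂ) (hg : g ≠ 0)
    (hh : MultiHom g) : ∃ p ∈ U r, eval (fun v => (p v.1).rep v.2) g ≠ 0 := by
  classical
  let q : Fin r × Fin r → MvPolynomial (Fin r × Fin 3) ℂ := fun x =>
    X (x.1, 0) * X (x.2, 1) - X (x.1, 1) * X (x.2, 0)
  have hq : ∀ x : Fin r × Fin r, x.1 ≠ x.2 → q x ≠ 0 := by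
    intro x hx h0
    have := congrArg (eval fun v : Fin r × Fin 3 =>
      if v = (x.1, 0) ∨ v = (x.2, 1) then (1 : ℂ) else 0) h0
    simp [q, hx, hx.symm] at this
  have hX : ∀ i : Fin r, (X (i, 2) : MvPolynomial (Fin r × Fin 3) ℂ) ≠ 0 := fun i => X_ne_zero _
  let G := g * (∏ x ∈ Finset.univ.filter (fun x : Fin r × Fin r => x.1 ≠ x.2), q x) *
    ∏ i : Fin r, X (i, 2)
  have hG : G ≠ 0 := mul_ne_zero (mul_ne_zero hg
    (Finset.prod_ne_zero_iff.mpr fun x hx => hq x (Finset.mem_filter.mp hx).2))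
    (Finset.prod_ne_zero_iff.mpr fun i _ => hX i)
  obtain ⟨v, hv⟩ : ∃ v, eval v G ≠ 0 := by
    by_contra hcon
    push Not at hcon
    exact hG (MvPolynomial.funext fun v => by rw [hcon, map_zero])
  simp only [G, map_mul, map_prod, eval_X, mul_ne_zero_iff, Finset.prod_ne_zero_iff] at hv
  obtain ⟨⟨hv1, hv2⟩, hv3⟩ := hv
  have hne : ∀ i : Fin r, (fun j => v (i, j)) ≠ 0 := fun i h0 =>
    hv3 i (Finset.mem_univ _) (congrFun h0 2)
  refine ⟨fun i => Projectivization.mk ℂ _ (hne i), ?_, ?_⟩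
  · intro i j hij
    by_contra hne'
    obtain ⟨a, ha⟩ := (Projectivization.mk_eq_mk_iff ℂ _ _ _ _).mp hij
    apply hv2 (i, j) (Finset.mem_filter.mpr ⟨Finset.mem_univ _, hne'⟩)
    have h0 := congrFun ha 0
    have h1 := congrFun ha 1
    simp only [Pi.smul_apply, Units.smul_def, smul_eq_mul] at h0 h1
    simp only [q, map_sub, map_mul, eval_X, ← h0, ← h1]
    ring
  · choose c hc using fun i => Projectivization.exists_smul_eq_mk_rep ℂ _ (hne i)
    have := scale hh c v hv1
    convert this using 3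
    funext y
    exact (congrFun (hc y.1) y.2).symm

end Red

open Red in
/-- From one good tuple over a domain, for equal multiplicities, to very general points. -/
theorem reduce {D : Type} [CommRing D] [IsDomain D] [Algebra ℂ D] (r : ℕ) (hr : 10 ≤ r)
    (main : ∀ d m : ℕ, 1 ≤ d → (d : ℝ) * Real.sqrt r ≤ r * m →
      ∃ P : Fin r → Fin 3 → D, ∀ F : MvPolynomial (Fin 3) D, F ≠ 0 → F.IsHomogeneous d →
        ¬ ∀ l, VanP m (P l) F) :
    ∃ Z : ℕ → Set (Fin r → Plane), (∀ n, ZClosed (Z n) ∧ Z n ≠ U r) ∧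
      ∀ p ∈ U r, (∀ n, p ∉ Z n) → ∀ d : ℕ, 1 ≤ d → ∀ F : MvPolynomial (Fin 3) ℂ, F ≠ 0 →
        F.IsHomogeneous d → ∀ m : Fin r → ℕ, (∀ i, m i ≤ mult F (p i)) →
          ((∑ i, m i : ℕ) : ℝ) < d * Real.sqrt r := by
  classical
  have key : ∀ x : ℕ × (Fin r → ℕ), ∃ g : MvPolynomial (Fin r × Fin 3) ℂ, g ≠ 0 ∧ MultiHom g ∧
      (1 ≤ x.1 → (x.1 : ℝ) * Real.sqrt r ≤ ((∑ i, x.2 i : ℕ) : ℝ) →
        ∃ f : JJ x.1 → Fin r × List (Fin 3), g = ((gm r x.1 x.2).submatrix f id).det) := by
    rintro ⟨d, m⟩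
    by_cases h : 1 ≤ d ∧ (d : ℝ) * Real.sqrt r ≤ ((∑ i, m i : ℕ) : ℝ)
    · obtain ⟨f, hf⟩ := exists_minor r hr main d m h.1 h.2
      exact ⟨_, hf, minor_hom r d m f, fun _ _ => ⟨f, rfl⟩⟩
    · exact ⟨1, one_ne_zero, multiHom_of (isWeightedHomogeneous_one ℂ _),
        fun h1 h2 => absurd ⟨h1, h2⟩ h⟩
  choose g hg0 hgh hgf using key
  obtain ⟨e, he⟩ := exists_surjective_nat (ℕ × (Fin r → ℕ))
  refine ⟨fun n => {p | p ∈ U r ∧ eval (fun v => (p v.1).rep v.2) (g (e n)) = 0},
    fun n => ⟨⟨{g (e n)}, by simpa using hgh _, by simp⟩, fun h0 => ?_⟩, ?_⟩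
  · obtain ⟨p, hp, hp'⟩ := proper _ (hg0 (e n)) (hgh _)
    rw [← h0] at hp
    exact hp' hp.2
  · intro p hp hZ d hd F hF0 hF m hm
    by_contra hcon
    obtain ⟨n, hn⟩ := he (d, m)
    apply hZ n
    refine ⟨hp, ?_⟩
    obtain ⟨f, hf⟩ := hgf (d, m) hd (not_lt.mp hcon)
    rw [hn, hf]
    have h1 := (aeval (R := ℂ) fun y : Fin r × Fin 3 => (p y.1).rep y.2).map_det
      ((gm r d m).submatrix f id)
    rw [← coe_aeval_eq_eval]
    refine h1.trans ?_
    rw [← Matrix.exists_mulVec_eq_zero_iff]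
    refine ⟨fun γ => coeff γ.1 F, fun h0 => hF0 ?_, ?_⟩
    · rw [← form_coeff F hF, h0]
      simp [form]
    · funext γ
      have := gm_mulVec m (fun i => (p i).rep) (fun γ : JJ d => coeff γ.1 F) (f γ)
      rw [form_coeff F hF] at this
      refine Eq.trans this ?_
      split_ifs with h
      · have h2 := Nat.notMem_of_lt_sInf (lt_of_lt_of_le h (hm _))
        by_contra h3
        exact h2 ⟨_, rfl, h3⟩
      · rfl

end Vale.Agent.P279
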