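import Vale.Agent.P279.Defs

namespace Vale.Agent.P279

namespace Transfer

/-- The Leibniz rule. -/
def Leib {B : Type*} [CommRing B] (D : B →+ B) : Prop := ∀ a b, D (a * b) = D a * b + a * D b

section
variable {B B' : Type*} [CommRing B] [CommRing B'] (ev : B →+* B') (D : Bool → B →+ B)

/-- All iterated derivatives of order `< k` vanish. -/
def Van : ℕ → B → Prop
  | 0, _ => True
  | k + 1, G => ev G = 0 ∧ ∀ i, Van k (D i G)

variable {ev D}

theorem Van.zero : ∀ k, Van ev D k 0
  | 0 => trivial
  | k + 1 => ⟨map_zero _, fun i => by rw [map_zero]; exact Van.zero k⟩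

theorem Van.add : ∀ {k G H}, Van ev D k G → Van ev D k H → Van ev D k (G + H)
  | 0, _, _, _, _ => trivial
  | _ + 1, _, _, h, h' => ⟨by rw [map_add, h.1, h'.1, add_zero], fun i => by
      rw [map_add]; exact (h.2 i).add (h'.2 i)⟩

theorem Van.mono : ∀ {k G}, Van ev D (k + 1) G → Van ev D k G
  | 0, _, _ => trivial
  | _ + 1, _, h => ⟨h.1, fun i => (h.2 i).mono⟩

theorem Van.mul (hD : ∀ i, Leib (D i)) : ∀ {k G} (H : B), Van ev D k G → Van ev D k (G * H)
  | 0, _, _, _ => trivial
  | _ + 1, _, H, h => ⟨by rw [map_mul, h.1, zero_mul], fun i => by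
      rw [hD i]; exact ((h.2 i).mul hD H).add (h.mono.mul hD _)⟩

theorem Van.iter {k : ℕ} (i : Bool) : ∀ {j G}, Van ev D (k + j) G → Van ev D k ((D i)^[j] G)
  | 0, _, h => h
  | j + 1, G, h => Van.iter i (j := j) (G := D i G) (h.2 i)

end

/-- Multiply the coefficient at `a` by `χ a`. -/
noncomputable def dA (χ : ℤ × ℤ → ℂ) : A2 →+ A2 :=
  (Finsupp.liftAddHom fun a => (AddMonoidAlgebra.singleAddHom a).comp
    (AddMonoidHom.mulLeft (χ a))).comp AddMonoidAlgebra.coeffAddEquiv.toAddMonoidHom

theorem dA_single (χ : ℤ × ℤ → ℂ) (a : ℤ × ℤ) (z : ℂ) :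
    dA χ (AddMonoidAlgebra.single a z) = AddMonoidAlgebra.single a (χ a * z) := by
  simp [dA]

theorem dA_iter (χ : ℤ × ℤ → ℂ) (a : ℤ × ℤ) (j : ℕ) (z : ℂ) :
    (dA χ)^[j] (AddMonoidAlgebra.single a z) = AddMonoidAlgebra.single a (χ a ^ j * z) := by
  induction j with
  | zero => simp
  | succ j ih => rw [Function.iterate_succ_apply', ih, dA_single, pow_succ', mul_assoc]

theorem leib_dA {χ : ℤ × ℤ → ℂ} (h : ∀ a b, χ (a + b) = χ a + χ b) : Leib (dA χ) := by
  intro x y
  induction x using AddMonoidAlgebra.induction_linear with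
  | zero => simp
  | add x x' h1 h2 => rw [add_mul, map_add, map_add, h1, h2]; ring
  | single a z =>
    induction y using AddMonoidAlgebra.induction_linear with
    | zero => simp
    | add y y' h1 h2 => rw [mul_add, map_add, map_add, h1, h2]; ring
    | single b w =>
      simp only [dA_single, AddMonoidAlgebra.single_mul_single, h]
      rw [← AddMonoidAlgebra.single_add]
      congr 1
      ring

/-- Coefficientwise extension to Hahn series. -/
def dR {A : Type*} [CommRing A] (D : A →+ A) : HahnSeries ℝ A →+ HahnSeries ℝ A where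
  toFun x := x.map D
  map_zero' := HahnSeries.map_zero D.toZeroHom
  map_add' _ _ := HahnSeries.map_add D

theorem dR_coeff {A : Type*} [CommRing A] (D : A →+ A) (x : HahnSeries ℝ A) (t : ℝ) :
    (dR D x).coeff t = D (x.coeff t) := rfl

theorem Leib.dR {A : Type*} [CommRing A] {D : A →+ A} (h : Leib D) : Leib (dR D) := by
  intro x y
  ext t
  rw [HahnSeries.coeff_add,
    HahnSeries.coeff_mul_left' (x := Transfer.dR D x) x.isPWO_support
      (x.support_map_subset D.toZeroHom),
    HahnSeries.coeff_mul_right' (y := Transfer.dR D y) y.isPWO_support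
      (y.support_map_subset D.toZeroHom), dR_coeff,
    HahnSeries.coeff_mul, map_sum, ← Finset.sum_add_distrib]
  exact Finset.sum_congr rfl fun _ _ => h _ _

theorem coeff_sum_mon {A : Type*} [CommRing A] (D : A →+ A) (p : Polynomial A) (n : ℕ) :
    (p.sum fun k a => Polynomial.monomial k (D a)).coeff n = D (p.coeff n) := by
  rw [Polynomial.coeff_sum, Polynomial.sum_def, Finset.sum_eq_single n]
  · simp
  · intro k _ hk
    rw [Polynomial.coeff_monomial, if_neg hk]
  · intro h
    simp [Polynomial.notMem_support_iff.1 h]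

/-- Coefficientwise extension to polynomials. -/
noncomputable def dP {A : Type*} [CommRing A] (D : A →+ A) : Polynomial A →+ Polynomial A where
  toFun p := p.sum fun k a => Polynomial.monomial k (D a)
  map_zero' := by simp
  map_add' p q := by
    ext n
    simp only [Polynomial.coeff_add, coeff_sum_mon, map_add]

theorem dP_coeff {A : Type*} [CommRing A] (D : A →+ A) (p : Polynomial A) (n : ℕ) :
    (dP D p).coeff n = D (p.coeff n) := coeff_sum_mon D p n

theorem Leib.dP {A : Type*} [CommRing A] {D : A →+ A} (h : Leib D) : Leib (dP D) := by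
  intro x y
  ext n
  simp only [Polynomial.coeff_add, Polynomial.coeff_mul, dP_coeff, map_sum,
    ← Finset.sum_add_distrib]
  exact Finset.sum_congr rfl fun _ _ => h _ _

theorem coeff_iter {A : Type*} [CommRing A] (D : A →+ A) (μ : ℕ) (t : ℝ) (j : ℕ)
    (G : Polynomial (HahnSeries ℝ A)) :
    (((dP (dR D))^[j] G).coeff μ).coeff t = D^[j] ((G.coeff μ).coeff t) := by
  induction j with
  | zero => rfl
  | succ j ih =>
    rw [Function.iterate_succ_apply', Function.iterate_succ_apply', dP_coeff, dR_coeff, ih]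

/-- The two exponent functions. -/
noncomputable def ch (b : Bool) (a : ℤ × ℤ) : ℂ := if b then (a.2 : ℂ) else (a.1 : ℂ)

/-- The two derivations. -/
noncomputable def DD (b : Bool) : Polynomial RR →+ Polynomial RR := dP (dR (dA (ch b)))

theorem leib_DD (b : Bool) : Leib (B := Polynomial RR) (DD b) :=
  (leib_dA fun _ _ => by cases b <;> simp [ch]).dR.dP

theorem DD_const (b : Bool) (c : Polynomial KK) : DD b (Polynomial.mapRingHom iota c) = 0 := by
  refine Polynomial.ext fun n => HahnSeries.ext (funext fun t => ?_)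
  rw [DD, dP_coeff, dR_coeff, Polynomial.coe_mapRingHom, Polynomial.coeff_map, iota, hmap_coeff,
    AddMonoidAlgebra.coe_algebraMap, Function.comp_apply, dA_single]
  cases b <;> simp [ch]

open MvPolynomial

theorem chain (Y : Fin 3 → Polynomial RR) (b : Bool) (F : MvPolynomial (Fin 3) (Polynomial KK)) :
    DD b (pull Y F) = ∑ i, pull Y (pderiv i F) * DD b (Y i) := by
  induction F using MvPolynomial.induction_on with
  | C c => simp only [pull, eval₂_C, DD_const, pderiv_C, eval₂_zero, zero_mul, Finset.sum_const_zero]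
  | add F G h1 h2 =>
    simp only [pull, eval₂_add, map_add, add_mul, Finset.sum_add_distrib] at h1 h2 ⊢
    rw [h1, h2]
  | mul_X F j h =>
    have e : ∀ i, pull Y (pderiv i (F * X j)) * DD b (Y i) =
        pull Y (pderiv i F) * DD b (Y i) * Y j + if j = i then pull Y F * DD b (Y i) else 0 := by
      intro i
      rw [pderiv_mul, pderiv_X, Pi.single_apply]
      split_ifs <;> simp only [pull, eval₂_add, eval₂_mul, eval₂_X, mul_one, mul_zero, add_zero]
        <;> ring
    simp only [e, Finset.sum_add_distrib, Finset.sum_ite_eq, Finset.mem_univ, if_true,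
      ← Finset.sum_mul, ← h]
    rw [← leib_DD b, pull, pull, eval₂_mul, eval₂_X]

theorem ev_pull (Y : Fin 3 → Polynomial RR) (σ : ℂˣ) (F : MvPolynomial (Fin 3) (Polynomial KK)) :
    evB σ (pull Y F) = eval (fun i => evB σ (Y i)) F := by
  have : (evB σ).comp (Polynomial.mapRingHom iota) = RingHom.id _ := by
    refine RingHom.ext fun c => Polynomial.ext fun n => HahnSeries.ext (funext fun t => ?_)
    simp [evB, iota, evA]
  refine (eval₂_comp_left (S₂ := Polynomial KK) (evB σ) (Polynomial.mapRingHom iota) Y F).trans ?_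
  rw [this]
  rfl

theorem van_pull (Y : Fin 3 → Polynomial RR) (σ : ℂˣ) (m : ℕ)
    (F : MvPolynomial (Fin 3) (Polynomial KK)) (h : VanP m (fun i => evB σ (Y i)) F) :
    Van (B := Polynomial RR) (B' := Polynomial KK) (evB σ) DD m (pull Y F) := by
  induction m generalizing F with
  | zero => trivial
  | succ m ih =>
    refine ⟨by rw [ev_pull]; exact h [] (Nat.succ_pos m), fun b => ?_⟩
    rw [chain]
    exact Finset.sum_induction _ _ (fun _ _ => Van.add) (Van.zero m) fun i _ =>
      (ih _ fun L hL => h (i :: L) (Nat.succ_lt_succ hL)).mul leib_DD _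

theorem evA_iter (σ : ℂˣ) (i j : ℕ) (G : A2) :
    evA σ ((dA (ch true))^[i] ((dA (ch false))^[j] G)) =
      G.coeff.sum (fun a z => z * (a.1 : ℂ) ^ j * (a.2 : ℂ) ^ i * (σ : ℂ) ^ a.2) := by
  induction G using AddMonoidAlgebra.induction_linear with
  | zero => simp
  | add x y h1 h2 =>
    rw [iterate_map_add, iterate_map_add, map_add, h1, h2, AddMonoidAlgebra.coeff_add,
      Finsupp.sum_add_index' (fun _ => by simp) fun _ _ _ => by ring]
  | single a z =>
    rw [dA_iter, dA_iter, AddMonoidAlgebra.coeff_single, Finsupp.sum_single_index (by simp)]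
    simp only [evA, ch, AlgHom.toRingHom_eq_coe, RingHom.coe_coe, AddMonoidAlgebra.lift_single,
      MonoidHom.coe_mk, OneHom.coe_mk, toAdd_ofAdd, Units.val_zpow_eq_zpow_val, smul_eq_mul,
      if_true, Bool.false_eq_true, if_false]
    ring

end Transfer

open Transfer in
/-- Vanishing of derivatives passes to every double coefficient of the pull back. -/
theorem transfer (Y : Fin 3 → Polynomial RR) (σ : ℂˣ) (F : MvPolynomial (Fin 3) (Polynomial KK))
    (m : ℕ) (h : VanP m (fun i => evB σ (Y i)) F) (μ : ℕ) (t : ℝ) (i j : ℕ) (hij : i + j < m) :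
    (((pull Y F).coeff μ).coeff t).coeff.sum
      (fun a z => z * (a.1 : ℂ) ^ j * (a.2 : ℂ) ^ i * (σ : ℂ) ^ a.2) = 0 := by
  have h1 := van_pull Y σ m F h
  obtain ⟨k, rfl⟩ : ∃ k, m = k + 1 + i + j := ⟨m - 1 - i - j, by omega⟩
  have h2 := congrArg (fun p : Polynomial KK => (p.coeff μ).coeff t)
    (Van.iter true (Van.iter false h1)).1
  simp only [evB, Polynomial.coe_mapRingHom, Polynomial.coeff_map, hmap_coeff, DD, coeff_iter,
    evA_iter] at h2
  simpa using h2

end Vale.Agent.P279
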