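import Vale.Agent.P279.Cone
import Vale.Agent.P279.Peel
import Vale.Agent.P279.Count
import Vale.Agent.P279.Transfer
import Vale.Agent.P279.Reduce

/-! Assembly. -/

namespace Vale.Agent.P279
open MvPolynomial

noncomputable section

theorem yy_indep {ρ : ℝ} (h0 : 0 < ρ) (h1 : ρ < 1) (k : ℕ) (g : ℕ → KK)
    (h : ∑ i ∈ Finset.range (k + 1), iota (g i) * yy ρ 1 ^ (k - i) * yy ρ 2 ^ i = 0) :
    ∀ i ≤ k, g i = 0 := by
  have R0 : Red 0 (yy ρ 1) (sm 0) := th_Red h0 h1 (i := 0) (by norm_num) (by norm_num)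
  have R2 : Red 0 (yy ρ 2) (sm 2) := th_Red h0 h1 (i := 2) (by norm_num) (by norm_num)
  intro i hi
  refine indep (Finset.range (k + 1)) g (fun i => yy ρ 1 ^ (k - i) * yy ρ 2 ^ i)
    (fun i => 2 * i) (fun i _ => ((R0.pow _).mul0 (R2.pow _)).congr ?_) (fun i _ j _ h => by omega)
    (by simpa only [mul_assoc] using h) i (Finset.mem_range.2 (by omega))
  rw [sm_pow, sm_pow, sm_mul]
  congr 1
  ring

theorem red_W {y0 y1 y2 : RR} (R1 : Red 0 y0 (sm 1)) (R0 : Red 0 y1 (sm 0))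
    (R2 : Red 0 y2 (sm 2)) {b e : KK} {β : ℂ} (hb : Red 0 b β) (he : Red 0 e (-β)) (κ : ℤ) :
    Red 0 (HahnSeries.single 0 (AddMonoidAlgebra.single (1, κ - 2) 1) *
      (3 * iota b * (y0 * y0) + iota e * (y1 * y2))) (AddMonoidAlgebra.single (1, κ) (2 * β)) := by
  have h3 : Red 0 (3 : RR) (3 : A2) := by simpa using Red.natCast (R := A2) 3
  refine ((Red.single 0 _).mul0 (((h3.mul0 hb.of_iota).mul0 (R1.mul0 R1)).add
    (he.of_iota.mul0 (R0.mul0 R2)))).congr ?_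
  have e1 : (3 : A2) * algebraMap ℂ A2 β * (sm 1 * sm 1) + algebraMap ℂ A2 (-β) * (sm 0 * sm 2) =
      algebraMap ℂ A2 (2 * β) * sm 2 := by
    rw [sm_mul, sm_mul, map_neg, map_mul, map_ofNat]
    norm_num
    ring
  rw [e1, sm, AddMonoidAlgebra.coe_algebraMap, Function.comp_apply,
    AddMonoidAlgebra.single_mul_single, AddMonoidAlgebra.single_mul_single]
  simp

theorem disc_ne {a b c e : KK} {β : ℂ} (hβ : β ≠ 0) (ha : Red 0 a 0) (hc : Red 0 c 0)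
    (hb : Red 0 b β) (he : Red 0 e (-β)) : 27 * b * a * c + e ^ 3 ≠ 0 := by
  intro h
  have h27 : Red 0 (27 : KK) (27 : ℂ) := by simpa using Red.natCast (R := ℂ) 27
  have := ((((h27.mul0 hb).mul0 ha).mul0 hc).add (he.pow 3)).eq_zero h
  simp [hβ] at this

theorem charZero_KK : CharZero KK := algebraRat.charZero KK

theorem core {ρ : ℝ} (h0 : 0 < ρ) (h1 : ρ < 1) (κ : ℤ) : ∃ Y : Fin 3 → Polynomial RR,
    ∀ (d : ℕ) (F : MvPolynomial (Fin 3) (Polynomial KK)), F ≠ 0 → F.IsHomogeneous d →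
      ∃ (μ : ℕ) (t : ℝ), ((pull Y F).coeff μ).coeff t ≠ 0 ∧
        ∀ a ∈ (((pull Y F).coeff μ).coeff t).coeff.support, ∃ x : ℕ, a.1 = x ∧ 3 * x ≤ d ∧
          -(((d - 3 * x : ℕ) : ℝ) * ρ) ≤ (a.2 - κ * x : ℤ) ∧
          ((a.2 - κ * x : ℤ) : ℝ) ≤ ((d - 3 * x : ℕ) : ℝ) * (3 - ρ) := by
  obtain ⟨a, b, c, e, β, hβ, ha, hc, hb, he, hac, hrel⟩ := exists_cubic h0 h1
  have hb0 : b ≠ 0 := fun h => hβ (hb.eq_zero h)
  have he0 : e ≠ 0 := fun h => hβ (neg_eq_zero.1 (he.eq_zero h))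
  haveI := charZero_KK
  have hker := ker_cub iota (yy ρ) a b c e hb0 hac he0 (disc_ne hβ ha hc hb he) hrel
    (yy_indep h0 h1)
  obtain ⟨v, hv⟩ : ∃ v : RR, v = HahnSeries.single 0 (AddMonoidAlgebra.single (1, κ - 2) 1) :=
    ⟨_, rfl⟩
  obtain ⟨u, hu, hu0⟩ := psi_cub (yy ρ) v a b c e hrel
  have hW : Red 0 (u.coeff 0) (AddMonoidAlgebra.single (1, κ) (2 * β)) := by
    rw [hu0, hv]
    exact red_W (th_Red h0 h1 (i := 1) (by norm_num) (by norm_num))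
      (th_Red h0 h1 (i := 0) (by norm_num) (by norm_num))
      (th_Red h0 h1 (i := 2) (by norm_num) (by norm_num)) hb he κ
  have hT : ∀ i, TT ρ 1 (yy ρ i) := fun i => by fin_cases i <;> exact th_TT ρ _
  have hZ : ∀ i, Z0 (yy ρ i) := fun i => by fin_cases i <;> exact th_Z0 ρ _
  refine ⟨YY (yy ρ) v, fun d F hF0 hF => ?_⟩
  obtain ⟨μ, S, x, g, hS, hx, hP, hμ⟩ := low_eps (yy ρ) v (u.coeff 0)
    (fun x g => 3 * x ≤ d ∧ TT ρ (d - 3 * x) g ∧ Z0 g ∧ g ≠ 0) d (by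
      intro G hG0 hG
      obtain ⟨x, G', h2, h3, h4, h5⟩ := factor_cub (yy ρ) _ hker d G hG0 hG
      refine ⟨x, eval₂ iota (yy ρ) G', u ^ x * psi (yy ρ) v G',
        ⟨h2, TT.eval hT h3, Z0.eval hZ _, h4⟩, ?_, ?_⟩
      · rw [h5, map_mul, map_pow, hu, (Polynomial.commute_X u).mul_pow, mul_assoc]
      · rw [Polynomial.mul_coeff_zero, psi_coeff_zero, ← Polynomial.constantCoeff_apply, map_pow,
          Polynomial.constantCoeff_apply]) F hF0 hF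
  obtain ⟨t, ht0, ht⟩ := low_t κ (2 * β) (mul_ne_zero two_ne_zero hβ) _ hW μ S x g hS hx
    (fun k hk => (hP k hk).2.2.2) (fun k hk => (hP k hk).2.2.1)
  refine ⟨μ, t, by rwa [hμ], fun p hp => ?_⟩
  rw [hμ] at hp
  obtain ⟨k, hk, h2, h3, h4⟩ := ht p hp
  exact ⟨x k, h2, (hP k hk).1, (hP k hk).2.1.window' h3 h4⟩

theorem main (r : ℕ) (hr : 10 ≤ r) (d m : ℕ) (hd : 1 ≤ d) (hm : (d : ℝ) * Real.sqrt r ≤ r * m) :
    ∃ P : Fin r → Fin 3 → Polynomial KK, ∀ F : MvPolynomial (Fin 3) (Polynomial KK), F ≠ 0 →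
      F.IsHomogeneous d → ¬ ∀ l, VanP m (P l) F := by
  obtain ⟨β, hβ, hβi, hfl⟩ := exists_beta r d
  have h0 : 0 < (⌈β⌉ : ℝ) - β := sub_pos.2 (lt_of_le_of_ne (Int.le_ceil β) (hβi _))
  have h1 : (⌈β⌉ : ℝ) - β < 1 := by linarith [Int.ceil_lt_add_one β]
  obtain ⟨Y, hY⟩ := core h0 h1 (-3 * (⌈β⌉ - 3))
  have hσ : ∀ l : Fin r, (0 : ℝ) < (l : ℕ) + 1 := fun l => by positivity
  have hσ' : ∀ l : Fin r, ((((l : ℕ) + 1 : ℝ)) : ℂ) ≠ 0 := fun l =>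
    Complex.ofReal_ne_zero.2 (hσ l).ne'
  refine ⟨fun l i => evB (Units.mk0 _ (hσ' l)) (Y i), fun F hF0 hF hv => ?_⟩
  obtain ⟨μ, t, hne, hsup⟩ := hY d F hF0 hF
  apply hne
  rw [← AddMonoidAlgebra.coeff_eq_zero]
  refine peel r m (fun l => (l : ℕ) + 1) hσ (fun l l' h => ?_) _
    (count r d m hr hd hm β hβ hfl ((⌈β⌉ - 3) * d) _ fun a ha => ?_)
    (fun l i j hij => transfer Y (Units.mk0 _ (hσ' l)) F m (hv l) μ t i j hij)
  · exact Fin.ext (by simpa using h)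
  · obtain ⟨x, h2, h3, h4, h5⟩ := hsup a ha
    rw [Nat.cast_sub h3] at h4 h5
    rw [h2]
    push_cast at h4 h5 ⊢
    refine ⟨by omega, by omega, by linarith, by linarith⟩

end

end Vale.Agent.P279
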