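import Vale.Agent.P279.Defs

/-! Double coefficients of products; theta functions form a graded ring. -/

namespace Vale.Agent.P279
open MvPolynomial

theorem cf_add (f g : RR) (j : ℝ) (a : ℤ × ℤ) : cf (f + g) j a = cf f j a + cf g j a := by
  simp [cf]

theorem cf_zero (j : ℝ) (a : ℤ × ℤ) : cf 0 j a = 0 := by simp [cf]

theorem cf_ext {f g : RR} (h : ∀ j a, cf f j a = cf g j a) : f = g := by
  ext j a
  exact h j a

theorem cf_iota (c : KK) (j : ℝ) (a : ℤ × ℤ) :
    cf (iota c) j a = if a = 0 then c.coeff j else 0 := by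
  classical
  simp only [cf, iota, hmap_coeff, AddMonoidAlgebra.coe_algebraMap, Function.comp_apply,
    AddMonoidAlgebra.coeff_single, Finsupp.single_apply, Algebra.algebraMap_self, RingHom.id_apply]
  by_cases h : a = 0
  · simp [h]
  · simp [h, Ne.symm h]

theorem cf_mul (f g : RR) (j : ℝ) (a : ℤ × ℤ) :
    cf (f * g) j a = ∑ᶠ p : ℝ × (ℤ × ℤ), cf f p.1 p.2 * cf g (j - p.1) (a - p.2) := by
  classical
  set T := Finset.antidiagonal f.isPWO_support g.isPWO_support j with hT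
  set Bg : Finset (ℤ × ℤ) := T.biUnion fun ij => (f.coeff ij.1).coeff.support with hB
  have hmem : ∀ ij : ℝ × ℝ, ij ∈ T ↔ f.coeff ij.1 ≠ 0 ∧ g.coeff ij.2 ≠ 0 ∧ ij.1 + ij.2 = j := by
    intro ij
    simp [hT, Finset.mem_antidiagonal]
  rw [finsum_eq_sum_of_support_subset (s := (T.image Prod.fst) ×ˢ Bg)]
  · rw [Finset.sum_product, Finset.sum_image]
    · unfold cf
      rw [HahnSeries.coeff_mul, ← hT, AddMonoidAlgebra.coeff_sum, Finsupp.finset_sum_apply]
      refine Finset.sum_congr rfl fun ij hij => ?_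
      have h2 : j - ij.1 = ij.2 := by have := ((hmem ij).1 hij).2.2; linarith
      rw [AddMonoidAlgebra.coeff_mul_apply_left, Finsupp.sum]
      simp only [h2]
      refine Finset.sum_subset_zero_on_sdiff ?_ ?_ ?_
      · intro b hb
        exact Finset.mem_biUnion.2 ⟨ij, hij, hb⟩
      · intro b hb
        have := (Finset.mem_sdiff.1 hb).2
        rw [Finsupp.notMem_support_iff] at this
        simp [this]
      · intro b _
        rw [neg_add_eq_sub]
    · intro x hx y hy hxy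
      have h1 := ((hmem x).1 hx).2.2
      have h2 := ((hmem y).1 hy).2.2
      have hxy' : x.1 = y.1 := hxy
      exact Prod.ext hxy' (by linarith)
  · intro p hp
    have hp' : cf f p.1 p.2 * cf g (j - p.1) (a - p.2) ≠ 0 := hp
    have h1 : cf f p.1 p.2 ≠ 0 := left_ne_zero_of_mul hp'
    have h2 : cf g (j - p.1) (a - p.2) ≠ 0 := right_ne_zero_of_mul hp'
    have hT1 : (p.1, j - p.1) ∈ T := by
      rw [hmem]
      refine ⟨fun h => h1 ?_, fun h => h2 ?_, by simp⟩
      · simp only at h; simp [cf, h]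
      · simp only at h; simp [cf, h]
    simp only [Finset.coe_product, Set.mem_prod, Finset.mem_coe, Finset.mem_image]
    exact ⟨⟨_, hT1, rfl⟩, Finset.mem_biUnion.2 ⟨_, hT1, Finsupp.mem_support_iff.2 h1⟩⟩

theorem cf_mul_ne_zero {f g : RR} {j : ℝ} {a : ℤ × ℤ} (h : cf (f * g) j a ≠ 0) :
    ∃ i b, cf f i b ≠ 0 ∧ cf g (j - i) (a - b) ≠ 0 := by
  by_contra hc
  push Not at hc
  apply h
  rw [cf_mul]
  refine finsum_eq_zero_of_forall_eq_zero fun p => ?_
  by_cases h1 : cf f p.1 p.2 = 0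
  · simp [h1]
  · simp [hc _ _ h1]

theorem TT.zero (ρ : ℝ) (e : ℕ) : TT ρ e 0 := fun _ _ _ => by simp [cf_zero]

theorem TT.add {ρ : ℝ} {e : ℕ} {f g : RR} (hf : TT ρ e f) (hg : TT ρ e g) : TT ρ e (f + g) :=
  fun j x n => by rw [cf_add, cf_add, hf, hg]

theorem TT.of_iota (ρ : ℝ) (c : KK) : TT ρ 0 (iota c) := by
  intro j x n
  rw [cf_iota, cf_iota]
  by_cases hn : n = 0
  · subst hn; simp
  · simp [hn]

/-- The shift of exponents in the functional equation. -/
def shiftE (ρ : ℝ) (e : ℕ) : ℝ × (ℤ × ℤ) ≃ ℝ × (ℤ × ℤ) where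
  toFun p := (p.1 + p.2.2 + e * ρ, (p.2.1, p.2.2 + 3 * e))
  invFun p := (p.1 - (p.2.2 - 3 * e : ℤ) - e * ρ, (p.2.1, p.2.2 - 3 * e))
  left_inv p := by
    ext
    · simp only [add_sub_cancel_right]; ring
    · simp
    · simp
  right_inv p := by
    ext
    · simp only; ring
    · simp
    · simp

theorem TT.mul {ρ : ℝ} {e e' : ℕ} {f g : RR} (hf : TT ρ e f) (hg : TT ρ e' g) :
    TT ρ (e + e') (f * g) := by
  intro j x n
  rw [cf_mul, cf_mul, ← finsum_comp_equiv (shiftE ρ e)]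
  refine finsum_congr fun p => ?_
  obtain ⟨i, y, k⟩ := p
  simp only [shiftE, Equiv.coe_fn_mk, Prod.mk_sub_mk]
  rw [hf i y k, ← hg (j - i) (x - y) (n - k)]
  congr 2
  · push_cast; ring
  · ext
    · rfl
    · push_cast; ring

theorem TT.sum {ι : Type*} {ρ : ℝ} {e : ℕ} (s : Finset ι) (f : ι → RR) (h : ∀ i ∈ s, TT ρ e (f i)) :
    TT ρ e (∑ i ∈ s, f i) :=
  Finset.sum_induction f (TT ρ e) (fun _ _ => TT.add) (TT.zero ρ e) h

theorem TT.one (ρ : ℝ) : TT ρ 0 1 := by simpa using TT.of_iota ρ 1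

theorem TT.pow {ρ : ℝ} {f : RR} (hf : TT ρ 1 f) (k : ℕ) : TT ρ k (f ^ k) := by
  induction k with
  | zero => simpa using TT.one ρ
  | succ k ih => rw [pow_succ]; exact ih.mul hf

theorem hom_sum {R : Type*} [CommRing R] {k : ℕ} {G : MvPolynomial (Fin 3) R}
    (hG : G.IsHomogeneous k) {γ : Fin 3 →₀ ℕ} (hγ : γ ∈ G.support) : γ 0 + γ 1 + γ 2 = k := by
  have := hG (mem_support_iff.1 hγ)
  rw [← this, Finsupp.weight_apply, Finsupp.sum_fintype _ _ (by simp), Fin.sum_univ_three]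
  simp

theorem TT.eval {ρ : ℝ} {y : Fin 3 → RR} (hy : ∀ i, TT ρ 1 (y i)) {k : ℕ}
    {G : MvPolynomial (Fin 3) KK} (hG : G.IsHomogeneous k) : TT ρ k (eval₂ iota y G) := by
  rw [eval₂_eq']
  refine TT.sum _ _ fun γ hγ => ?_
  have h1 : γ 0 + γ 1 + γ 2 = k := by
    exact hom_sum hG hγ
  rw [Fin.prod_univ_three]
  have := (TT.of_iota ρ (coeff γ G)).mul ((((hy 0).pow (γ 0)).mul ((hy 1).pow (γ 1))).mul
    ((hy 2).pow (γ 2)))
  rwa [zero_add, h1] at this

theorem Z0.zero : Z0 0 := fun _ _ h => (h (cf_zero _ _)).elim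

theorem Z0.add {f g : RR} (hf : Z0 f) (hg : Z0 g) : Z0 (f + g) := by
  intro j a h
  rw [cf_add] at h
  by_cases h1 : cf f j a = 0
  · exact hg j a (by simpa [h1] using h)
  · exact hf j a h1

theorem Z0.of_iota (c : KK) : Z0 (iota c) := by
  intro j a h
  rw [cf_iota] at h
  by_cases h1 : a = 0
  · simp [h1]
  · simp [h1] at h

theorem Z0.mul {f g : RR} (hf : Z0 f) (hg : Z0 g) : Z0 (f * g) := by
  intro j a h
  obtain ⟨i, b, h1, h2⟩ := cf_mul_ne_zero h
  have h3 := hf _ _ h1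
  have h4 := hg _ _ h2
  simp only [Prod.fst_sub] at h4
  omega

theorem Z0.eval {y : Fin 3 → RR} (hy : ∀ i, Z0 (y i)) (G : MvPolynomial (Fin 3) KK) :
    Z0 (eval₂ iota y G) := by
  induction G using MvPolynomial.induction_on with
  | C a => rw [eval₂_C]; exact Z0.of_iota a
  | add p q hp hq => rw [eval₂_add]; exact hp.add hq
  | mul_X p i hp => rw [eval₂_mul, eval₂_X]; exact hp.mul (hy i)

theorem Cl.add {i : ℤ} {f g : RR} (hf : Cl i f) (hg : Cl i g) : Cl i (f + g) := by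
  intro j a h
  rw [cf_add] at h
  by_cases h1 : cf f j a = 0
  · exact hg j a (by simpa [h1] using h)
  · exact hf j a h1

theorem Cl.of_iota (c : KK) : Cl 0 (iota c) := by
  intro j a h
  rw [cf_iota] at h
  by_cases h1 : a = 0
  · simp [h1]
  · simp [h1] at h

theorem Cl.mul {i k : ℤ} {f g : RR} (hf : Cl i f) (hg : Cl k g) : Cl (i + k) (f * g) := by
  intro j a h
  obtain ⟨i, b, h1, h2⟩ := cf_mul_ne_zero h
  have h3 := hf _ _ h1
  have h4 := hg _ _ h2
  simp only [Prod.snd_sub] at h4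
  omega

theorem Cl.congr {i k : ℤ} {f : RR} (hf : Cl i f) (h : i % 3 = k % 3) : Cl k f :=
  fun j a ha => (hf j a ha).trans h

/-- The lowest terms of a theta function lie in a window. -/
theorem TT.window {ρ : ℝ} {e : ℕ} {f : RR} (hf : TT ρ e f) {a : ℤ × ℤ}
    (ha : cf f f.order a ≠ 0) : -(e * ρ) ≤ a.2 ∧ (a.2 : ℝ) ≤ e * (3 - ρ) := by
  obtain ⟨x, n⟩ := a
  have key : ∀ j b, cf f j b ≠ 0 → f.order ≤ j := fun j b h =>
    HahnSeries.order_le_of_coeff_ne_zero fun h0 => h (by simp [cf, h0])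
  constructor
  · have := key _ _ ((hf f.order x n).trans_ne ha)
    simp only
    linarith
  · have h1 := hf (f.order - (n - 3 * e : ℤ) - e * ρ) x (n - 3 * e)
    have h2 : f.order - (n - 3 * e : ℤ) - e * ρ + (n - 3 * e : ℤ) + e * ρ = f.order := by ring
    rw [h2, sub_add_cancel] at h1
    have := key _ _ (h1.symm.trans_ne ha)
    push_cast at this
    simp only
    linarith

end Vale.Agent.P279
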