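import Vale.Agent.P279.Hahn

/-! Reduction modulo terms of positive order. -/

namespace Vale.Agent.P279

section
variable {R : Type*} [CommRing R]

theorem coeff_mul_ne_zero {f g : HahnSeries ℝ R} {j : ℝ} (h : (f * g).coeff j ≠ 0) :
    ∃ i, f.coeff i ≠ 0 ∧ g.coeff (j - i) ≠ 0 := by
  rw [HahnSeries.coeff_mul] at h
  obtain ⟨p, hp, -⟩ := Finset.exists_ne_zero_of_sum_ne_zero h
  simp only [Finset.mem_antidiagonal, HahnSeries.mem_support] at hp
  exact ⟨p.1, hp.1, by rw [← hp.2.2]; simpa using hp.2.1⟩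

/-- `f` has no terms below order `v` and coefficient `c` in order `v`. -/
def Red (v : ℝ) (f : HahnSeries ℝ R) (c : R) : Prop := (∀ j < v, f.coeff j = 0) ∧ f.coeff v = c

theorem Red.mul {v w : ℝ} {f g : HahnSeries ℝ R} {a b : R} (hf : Red v f a) (hg : Red w g b) :
    Red (v + w) (f * g) (a * b) := by
  constructor
  · intro j hj
    by_contra h
    obtain ⟨i, h1, h2⟩ := coeff_mul_ne_zero h
    have h3 : v ≤ i := not_lt.1 fun hi => h1 (hf.1 i hi)
    have h4 : w ≤ j - i := not_lt.1 fun hi => h2 (hg.1 _ hi)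
    linarith
  · rw [HahnSeries.coeff_mul, Finset.sum_eq_single (v, w), hf.2, hg.2]
    · intro p hp hne
      simp only [Finset.mem_antidiagonal, HahnSeries.mem_support] at hp
      have h3 : v ≤ p.1 := not_lt.1 fun hi => hp.1 (hf.1 _ hi)
      have h4 : w ≤ p.2 := not_lt.1 fun hi => hp.2.1 (hg.1 _ hi)
      exact (hne (Prod.ext (by simp only; linarith [hp.2.2]) (by simp only; linarith [hp.2.2]))).elim
    · intro h
      simp only [Finset.mem_antidiagonal, HahnSeries.mem_support, and_true, not_and, not_not,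
        ne_eq] at h
      by_cases h1 : f.coeff v = 0
      · simp [h1]
      · simp [h h1]

theorem Red.mul0 {f g : HahnSeries ℝ R} {a b : R} (hf : Red 0 f a) (hg : Red 0 g b) :
    Red 0 (f * g) (a * b) := by simpa using hf.mul hg

theorem Red.add {v : ℝ} {f g : HahnSeries ℝ R} {a b : R} (hf : Red v f a) (hg : Red v g b) :
    Red v (f + g) (a + b) :=
  ⟨fun j hj => by simp [hf.1 j hj, hg.1 j hj], by simp [hf.2, hg.2]⟩

theorem Red.zero (v : ℝ) : Red v (0 : HahnSeries ℝ R) 0 := ⟨fun _ _ => by simp, by simp⟩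

theorem Red.single (v : ℝ) (c : R) : Red v (HahnSeries.single v c) c :=
  ⟨fun j hj => by rw [HahnSeries.coeff_single_of_ne hj.ne], by simp⟩

theorem Red.one : Red 0 (1 : HahnSeries ℝ R) 1 := Red.single 0 1

theorem Red.pow {f : HahnSeries ℝ R} {a : R} (hf : Red 0 f a) (k : ℕ) : Red 0 (f ^ k) (a ^ k) := by
  induction k with
  | zero => simpa using Red.one
  | succ k ih => rw [pow_succ, pow_succ]; exact ih.mul0 hf

theorem Red.natCast (k : ℕ) : Red 0 (k : HahnSeries ℝ R) (k : R) := by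
  induction k with
  | zero => simpa using Red.zero 0
  | succ k ih => push_cast; exact ih.add Red.one

theorem Red.sum {ι : Type*} {v : ℝ} (s : Finset ι) (f : ι → HahnSeries ℝ R) (a : ι → R)
    (h : ∀ i ∈ s, Red v (f i) (a i)) : Red v (∑ i ∈ s, f i) (∑ i ∈ s, a i) := by
  classical
  induction s using Finset.induction_on with
  | empty => simpa using Red.zero v
  | insert i s hi ih =>
    rw [Finset.sum_insert hi, Finset.sum_insert hi]
    exact (h i (by simp)).add (ih fun k hk => h k (by simp [hk]))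

theorem Red.eq_zero {v : ℝ} {f : HahnSeries ℝ R} {a : R} (hf : Red v f a) (h : f = 0) : a = 0 := by
  rw [← hf.2, h]; simp

theorem Red.congr {v : ℝ} {f : HahnSeries ℝ R} {a b : R} (hf : Red v f a) (h : a = b) :
    Red v f b := h ▸ hf

theorem Red.order (f : HahnSeries ℝ R) : Red f.order f (f.coeff f.order) :=
  ⟨fun _ hj => HahnSeries.coeff_eq_zero_of_lt_order hj, rfl⟩

theorem Red.mono {v w : ℝ} {f : HahnSeries ℝ R} {a : R} (hf : Red v f a) (h : w < v) :
    Red w f 0 := ⟨fun j hj => hf.1 j (hj.trans h), hf.1 w h⟩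

end

theorem Red.of_iota {v : ℝ} {c : KK} {z : ℂ} (h : Red v c z) :
    Red v (iota c) (algebraMap ℂ A2 z) :=
  ⟨fun j hj => by simp [iota, h.1 j hj], by simp [iota, h.2]⟩

/-- A finite family of scalars, not all zero, has a common lowest order. -/
theorem exists_low {ι : Type*} {R : Type*} [CommRing R] (s : Finset ι) (g : ι → HahnSeries ℝ R)
    (h : ∃ i ∈ s, g i ≠ 0) :
    ∃ v : ℝ, (∀ i ∈ s, Red v (g i) ((g i).coeff v)) ∧ ∃ i ∈ s, (g i).coeff v ≠ 0 := by
  classical
  obtain ⟨i, hi, hmin⟩ := Finset.exists_min_image (s.filter fun i => g i ≠ 0)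
    (fun i => (g i).order) (by
      obtain ⟨i, hi, h0⟩ := h
      exact ⟨i, Finset.mem_filter.2 ⟨hi, h0⟩⟩)
  rw [Finset.mem_filter] at hi
  refine ⟨(g i).order, fun k hk => ⟨fun j hj => ?_, rfl⟩, i, hi.1, ?_⟩
  · by_cases h0 : g k = 0
    · simp [h0]
    · exact HahnSeries.coeff_eq_zero_of_lt_order
        (hj.trans_le (hmin k (Finset.mem_filter.2 ⟨hk, h0⟩)))
  · exact fun h0 => hi.2 (HahnSeries.coeff_order_eq_zero.1 h0)

theorem sm_mul (m n : ℤ) : sm m * sm n = sm (m + n) := by
  simp [sm, AddMonoidAlgebra.single_mul_single]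

theorem sm_zero : sm 0 = 1 := rfl

theorem sm_pow (m : ℤ) (k : ℕ) : sm m ^ k = sm (k * m) := by
  induction k with
  | zero => simp [sm_zero]
  | succ k ih => rw [pow_succ, ih, sm_mul]; congr 1; push_cast; ring

theorem coeff_alg_sm (z : ℂ) (m : ℤ) (a : ℤ × ℤ) :
    (algebraMap ℂ A2 z * sm m).coeff a = if a = (0, m) then z else 0 := by
  classical
  simp only [sm, AddMonoidAlgebra.coe_algebraMap, Function.comp_apply,
    AddMonoidAlgebra.single_mul_single, zero_add, mul_one, AddMonoidAlgebra.coeff_single,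
    Finsupp.single_apply, Algebra.algebraMap_self, RingHom.id_apply]
  by_cases h : a = (0, m)
  · simp [h]
  · simp [h, Ne.symm h]

/-- Independence from distinct leading monomials. -/
theorem indep {ι : Type*} (s : Finset ι) (g : ι → KK) (f : ι → RR) (n : ι → ℤ)
    (hf : ∀ i ∈ s, Red 0 (f i) (sm (n i))) (hn : ∀ i ∈ s, ∀ k ∈ s, n i = n k → i = k)
    (h : ∑ i ∈ s, iota (g i) * f i = 0) : ∀ i ∈ s, g i = 0 := by
  classical
  by_contra hc
  push Not at hc
  obtain ⟨v, hv, i, hi, h0⟩ := exists_low s g hc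
  have h1 := (Red.sum s _ _ fun k hk => (hv k hk).of_iota.mul (hf k hk)).eq_zero h
  have h2 := congrArg (fun x : A2 => x.coeff (0, n i)) h1
  simp only [AddMonoidAlgebra.coeff_sum, Finsupp.finset_sum_apply, coeff_alg_sm] at h2
  rw [Finset.sum_eq_single i] at h2
  · simp [h0] at h2
  · intro k hk hki
    rw [if_neg]
    intro h3
    exact hki (hn k hk i hi (Prod.ext_iff.1 h3).2.symm)
  · intro h3; exact (h3 hi).elim

end Vale.Agent.P279
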