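import Mathlib

/-! Definitions used in the statement of the theorem of Nagata type. -/

namespace Vale.Agent.P279
open MvPolynomial

noncomputable section

/-- The iterated formal derivative of `F` along the list `L` of variables; its order is the
length of `L`. -/
def iterD {R : Type*} [CommRing R] (L : List (Fin 3)) (F : MvPolynomial (Fin 3) R) :
    MvPolynomial (Fin 3) R :=
  L.foldl (fun G i => pderiv i G) F

/-- The complex projective plane. -/
abbrev Plane : Type := Projectivization ℂ (Fin 3 → ℂ)

/-- Multiplicity at `p` of the curve `F = 0`: least order of a derivative not vanishing at `p`. -/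
def mult (F : MvPolynomial (Fin 3) ℂ) (p : Plane) : ℕ :=
  sInf {k | ∃ L : List (Fin 3), L.length = k ∧ eval p.rep (iterD L F) ≠ 0}

/-- The set of `r`-tuples of pairwise distinct points of the plane. -/
def U (r : ℕ) : Set (Fin r → Plane) := {p | Function.Injective p}

/-- `f` is homogeneous in each of the `r` blocks of three variables. -/
def MultiHom {r : ℕ} (f : MvPolynomial (Fin r × Fin 3) ℂ) : Prop :=
  ∃ deg : Fin r → ℕ, ∀ μ ∈ f.support, ∀ i, ∑ j, μ (i, j) = deg i

/-- `Z` is a Zariski closed subset of `U r`: the common zero locus in `U r` of a set of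
multihomogeneous polynomials. -/
def ZClosed {r : ℕ} (Z : Set (Fin r → Plane)) : Prop :=
  ∃ S : Set (MvPolynomial (Fin r × Fin 3) ℂ), (∀ f ∈ S, MultiHom f) ∧
    Z = {p | p ∈ U r ∧ ∀ f ∈ S, eval (fun v => (p v.1).rep v.2) f = 0}

end

end Vale.Agent.P279
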