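import Vale.Agent.P279.Red

/-! Theta series of level one. -/

namespace Vale.Agent.P279

noncomputable section

/-- The quadratic exponent. -/
def gam (ρ : ℝ) (n : ℤ) : ℝ := (n : ℝ) ^ 2 / 6 + (ρ / 3 - 1 / 2) * n

theorem gam_finite (ρ C : ℝ) : {n : ℤ | gam ρ n ≤ C}.Finite := by
  obtain ⟨M, hM⟩ := exists_nat_ge (max (6 * (|ρ / 3 - 1 / 2| + 1)) C)
  have h1 : 6 * (|ρ / 3 - 1 / 2| + 1) ≤ M := (le_max_left _ _).trans hM
  have h2 : C ≤ M := (le_max_right _ _).trans hM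
  refine (Set.finite_Icc (-(M : ℤ)) M).subset fun n hn => ?_
  have hn' : gam ρ n ≤ C := hn
  unfold gam at hn'
  have ha := le_abs_self (ρ / 3 - 1 / 2)
  have hb := neg_abs_le (ρ / 3 - 1 / 2)
  have h0 := abs_nonneg (ρ / 3 - 1 / 2)
  constructor
  · by_contra h
    have h3 : (n : ℝ) < -M := by exact_mod_cast not_le.1 h
    nlinarith
  · by_contra h
    have h3 : (M : ℝ) < n := by exact_mod_cast not_le.1 h
    nlinarith

theorem isPWO_of_finite {S : Set ℝ} (h : ∀ C, (S ∩ Set.Iic C).Finite) : S.IsPWO := by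
  refine Set.IsWF.isPWO ?_
  rw [Set.isWF_iff_no_descending_seq]
  intro f hf hS
  refine Set.infinite_of_injective_forall_mem hf.injective (s := S ∩ Set.Iic (f 0)) (fun n => ?_)
    (h _)
  exact ⟨hS n, hf.antitone (Nat.zero_le n)⟩

open Classical in
/-- Coefficients of the theta series. -/
def thc (ρ : ℝ) (i : ℤ) (j : ℝ) (a : ℤ × ℤ) : ℂ :=
  if a.1 = 0 ∧ a.2 % 3 = i % 3 ∧ j = gam ρ a.2 - gam ρ i then 1 else 0

theorem thc_ne {ρ : ℝ} {i : ℤ} {j : ℝ} {a : ℤ × ℤ} (h : thc ρ i j a ≠ 0) :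
    a.1 = 0 ∧ a.2 % 3 = i % 3 ∧ j = gam ρ a.2 - gam ρ i := by
  by_contra hc
  exact h (if_neg hc)

theorem thc_finite (ρ : ℝ) (i : ℤ) (j : ℝ) : (Function.support (thc ρ i j)).Finite := by
  refine ((gam_finite ρ (j + gam ρ i)).image fun n : ℤ => ((0 : ℤ), n)).subset fun a ha => ?_
  obtain ⟨h1, -, h3⟩ := thc_ne ha
  exact ⟨a.2, by simp only [Set.mem_setOf_eq]; linarith, Prod.ext h1.symm rfl⟩

/-- The theta series. -/
def th (ρ : ℝ) (i : ℤ) : RR where
  coeff j := AddMonoidAlgebra.ofCoeff (Finsupp.ofSupportFinite _ (thc_finite ρ i j))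
  isPWO_support' := by
    refine isPWO_of_finite fun C => ?_
    refine ((gam_finite ρ (C + gam ρ i)).image fun n : ℤ => gam ρ n - gam ρ i).subset ?_
    rintro j ⟨hj, hC⟩
    have : ∃ a, thc ρ i j a ≠ 0 := by
      by_contra hc
      push Not at hc
      apply hj
      ext a
      exact hc a
    obtain ⟨a, ha⟩ := this
    obtain ⟨-, -, h3⟩ := thc_ne ha
    have hC' : j ≤ C := hC
    exact ⟨a.2, by simp only [Set.mem_setOf_eq]; linarith, h3.symm⟩

theorem cf_th (ρ : ℝ) (i : ℤ) (j : ℝ) (a : ℤ × ℤ) : cf (th ρ i) j a = thc ρ i j a := rfl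

theorem th_TT (ρ : ℝ) (i : ℤ) : TT ρ 1 (th ρ i) := by
  intro j x n
  rw [cf_th, cf_th]
  unfold thc
  refine if_congr (and_congr Iff.rfl (and_congr ?_ ?_)) rfl rfl
  · simp
  · simp only [gam]
    push_cast
    constructor <;> intro h <;> linarith

theorem th_Z0 (ρ : ℝ) (i : ℤ) : Z0 (th ρ i) := fun _ _ h => (thc_ne h).1

theorem th_Cl (ρ : ℝ) (i : ℤ) : Cl i (th ρ i) := fun _ _ h => (thc_ne h).2.1

theorem gam_cases {ρ : ℝ} (h0 : 0 < ρ) (h1 : ρ < 1) {i n : ℤ} (hi0 : 0 ≤ i) (hi2 : i ≤ 2)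
    (h : n % 3 = i % 3) :
    n = i ∨ (n = i + 3 ∧ gam ρ n - gam ρ i = i + ρ) ∨ (n < i ∧ 3 - i - ρ ≤ gam ρ n - gam ρ i) ∨
      3 ≤ gam ρ n - gam ρ i := by
  obtain ⟨k, rfl⟩ : ∃ k, n = i + 3 * k := ⟨(n - i) / 3, by omega⟩
  have hg : gam ρ (i + 3 * k) - gam ρ i = 3 * k * (k - 1) / 2 + (i + ρ) * k := by
    simp only [gam]; push_cast; ring
  have hi0' : (0 : ℝ) ≤ i := by exact_mod_cast hi0
  have hi2' : (i : ℝ) ≤ 2 := by exact_mod_cast hi2
  rw [hg]
  rcases lt_trichotomy k 0 with hk | hk | hk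
  · right; right; left
    have hk' : (k : ℝ) ≤ -1 := by exact_mod_cast (show k ≤ -1 by omega)
    exact ⟨by omega, by nlinarith⟩
  · left; simp [hk]
  · rcases (show k = 1 ∨ 2 ≤ k by omega) with hk1 | hk2
    · right; left; subst hk1; constructor
      · ring
      · push_cast; ring
    · right; right; right
      have hk' : (2 : ℝ) ≤ k := by exact_mod_cast hk2
      nlinarith

theorem gam_pos {ρ : ℝ} (h0 : 0 < ρ) (h1 : ρ < 1) {i n : ℤ} (hi0 : 0 ≤ i) (hi2 : i ≤ 2)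
    (h : n % 3 = i % 3) : n = i ∨ 0 < gam ρ n - gam ρ i := by
  have hi0' : (0 : ℝ) ≤ i := by exact_mod_cast hi0
  have hi2' : (i : ℝ) ≤ 2 := by exact_mod_cast hi2
  rcases gam_cases h0 h1 hi0 hi2 h with h2 | h2 | h2 | h2
  · exact Or.inl h2
  · right; linarith [h2.2]
  · right; linarith [h2.2]
  · right; linarith

theorem th_Red {ρ : ℝ} (h0 : 0 < ρ) (h1 : ρ < 1) {i : ℤ} (hi0 : 0 ≤ i) (hi2 : i ≤ 2) :
    Red 0 (th ρ i) (sm i) := by
  classical
  constructor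
  · intro j hj
    ext a
    by_contra hc
    obtain ⟨-, h2, h3⟩ := thc_ne (show thc ρ i j a ≠ 0 from hc)
    rcases gam_pos h0 h1 hi0 hi2 h2 with h4 | h4
    · rw [h4] at h3; linarith
    · linarith
  · ext a
    change thc ρ i 0 a = _
    simp only [sm, AddMonoidAlgebra.coeff_single, Finsupp.single_apply]
    by_cases ha : (0, i) = a
    · subst ha; simp [thc]
    · rw [if_neg ha]
      by_contra hc
      obtain ⟨h5, h2, h3⟩ := thc_ne hc
      rcases gam_pos h0 h1 hi0 hi2 h2 with h4 | h4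
      · exact ha (Prod.ext h5.symm h4.symm)
      · linarith

end

end Vale.Agent.P279
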